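import Mathlib

/-!
Geometry of a convex body in a three-dimensional inner product space: inscribed balls tangent to
support planes, separation vectors, thin sets, chords of balls.
-/

open MeasureTheory Set Module Metric
open scoped ENNReal RealInnerProductSpace

noncomputable section

namespace Vale.Agent.Lib.P243b

variable {M : Type*} [NormedAddCommGroup M] [InnerProductSpace ℝ M] [FiniteDimensional ℝ M]

/-- A unit vector orthogonal to two given vectors. -/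
theorem exists_unit_orthogonal (hM : finrank ℝ M = 3) (a b : M) :
    ∃ v : M, ‖v‖ = 1 ∧ ⟪a, v⟫ = 0 ∧ ⟪b, v⟫ = 0 := by
  classical
  set S : Submodule ℝ M := Submodule.span ℝ (↑({a, b} : Finset M) : Set M) with hS
  have h1 : finrank ℝ S ≤ 2 := by
    have := finrank_span_finset_le_card (R := ℝ) ({a, b} : Finset M)
    exact this.trans Finset.card_le_two
  have h2 := Submodule.finrank_add_finrank_orthogonal S
  have h3 : 0 < finrank ℝ Sᗮ := by omega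
  have h4 : Sᗮ ≠ ⊥ := by
    intro h
    rw [h] at h3
    simp at h3
  obtain ⟨w, hw, hw0⟩ := Submodule.exists_mem_ne_zero_of_ne_bot h4
  have hwn : ‖w‖ ≠ 0 := norm_ne_zero_iff.2 hw0
  refine ⟨(‖w‖)⁻¹ • w, ?_, ?_, ?_⟩
  · rw [norm_smul, norm_inv, norm_norm, inv_mul_cancel₀ hwn]
  · rw [inner_smul_right]
    have : ⟪a, w⟫ = 0 := (Submodule.mem_orthogonal S w).1 hw a
      (Submodule.subset_span (by simp))
    rw [this, mul_zero]
  · rw [inner_smul_right]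
    have : ⟪b, w⟫ = 0 := (Submodule.mem_orthogonal S w).1 hw b
      (Submodule.subset_span (by simp))
    rw [this, mul_zero]

/-- An inscribed ball of radius `ρ₁` tangent to a support plane whose normal makes a definite
angle with a prescribed direction. -/
theorem exists_triple {K : Set M} (hc : IsCompact K) (hv : Convex ℝ K) {c₀ : M} {ρ₀ R₀ ρ₁ : ℝ}
    (hρ1 : 0 < ρ₁) (hρ : ρ₁ < ρ₀) (hin : closedBall c₀ ρ₀ ⊆ K) (hout : K ⊆ closedBall c₀ R₀)
    {v : M} (hv1 : ‖v‖ = 1) :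
    ∃ c n : M, ‖n‖ = 1 ∧ closedBall c ρ₁ ⊆ K ∧ (∀ w ∈ K, ⟪n, w - c⟫ ≤ ρ₁) ∧
      (ρ₀ - ρ₁) / R₀ ≤ ⟪n, v⟫ := by
  have hρ0 : 0 < ρ₀ := hρ1.trans hρ
  have hR₀ : 0 < R₀ := by
    have h1 : c₀ + ρ₀ • v ∈ closedBall c₀ R₀ := hout (hin (by
      simp [norm_smul, hv1, abs_of_pos hρ0]))
    have h2 : ‖ρ₀ • v‖ ≤ R₀ := by simpa using h1
    rw [norm_smul, hv1, mul_one, Real.norm_eq_abs, abs_of_pos hρ0] at h2
    linarith
  -- the complement
  have hfar : ∀ τ : ℝ, R₀ < τ → c₀ + τ • v ∉ K := by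
    intro τ hτ hmem
    have h1 := hout hmem
    have h2 : ‖τ • v‖ ≤ R₀ := by simpa using h1
    rw [norm_smul, hv1, mul_one, Real.norm_eq_abs, abs_of_pos (hR₀.trans hτ)] at h2
    linarith
  have hne : (Kᶜ).Nonempty := ⟨c₀ + (R₀ + 1) • v, hfar _ (by linarith)⟩
  set d : ℝ → ℝ := fun τ => infDist (c₀ + τ • v) Kᶜ with hd
  have hdc : Continuous d := (continuous_infDist_pt _).comp (by fun_prop)
  have hd0 : ρ₀ ≤ d 0 := by
    simp only [hd, zero_smul, add_zero]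
    rw [le_infDist hne]
    intro z hz
    by_contra hlt
    push Not at hlt
    apply hz
    apply hin
    rw [mem_closedBall, dist_comm]
    exact hlt.le
  have hd1 : d (R₀ + 1) = 0 := infDist_zero_of_mem (hfar _ (by linarith))
  obtain ⟨τ, hτ, hτd⟩ : ∃ τ ∈ Icc 0 (R₀ + 1), d τ = ρ₁ := by
    have := intermediate_value_Icc' (a := 0) (b := R₀ + 1) (by linarith) hdc.continuousOn
    obtain ⟨τ, hτ, h⟩ := this (show ρ₁ ∈ Icc (d (R₀ + 1)) (d 0) from
      ⟨by rw [hd1]; exact hρ1.le, hρ.le.trans hd0⟩)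
    exact ⟨τ, hτ, h⟩
  set c : M := c₀ + τ • v with hcdef
  have hcd : infDist c Kᶜ = ρ₁ := hτd
  -- the open ball is inside
  have hball : ball c ρ₁ ⊆ K := by
    intro w hw
    by_contra hnot
    have h1 := infDist_le_dist_of_mem (x := c) (show w ∈ Kᶜ from hnot)
    rw [hcd] at h1
    have h2 : dist w c < ρ₁ := hw
    rw [dist_comm] at h2
    linarith
  have hclosed : closedBall c ρ₁ ⊆ K := by
    rw [← closure_ball c hρ1.ne']
    exact closure_minimal hball hc.isClosed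
  -- contact point
  obtain ⟨x, hx, hxd⟩ := (isClosed_closure (s := Kᶜ)).exists_infDist_eq_dist hne.closure c
  rw [infDist_closure, hcd] at hxd
  have hxint : x ∉ interior K := by
    rw [closure_compl] at hx
    exact hx
  have hint : (interior K).Nonempty := by
    refine ⟨c₀, ?_⟩
    exact interior_mono hin (by
      rw [mem_interior]
      exact ⟨ball c₀ ρ₀, ball_subset_closedBall, isOpen_ball, mem_ball_self hρ0⟩)
  obtain ⟨f, hf⟩ := geometric_hahn_banach_open_point hv.interior isOpen_interior hxint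
  set n₀ : M := (InnerProductSpace.toDual ℝ M).symm f with hn₀
  have hfn : ∀ a, f a = ⟪n₀, a⟫ := by
    intro a
    rw [hn₀, InnerProductSpace.toDual_symm_apply]
  have hn0ne : n₀ ≠ 0 := by
    intro h
    obtain ⟨a, ha⟩ := hint
    have := hf a ha
    rw [hfn, hfn, h] at this
    simp at this
  have hsupp : ∀ w ∈ K, ⟪n₀, w⟫ ≤ ⟪n₀, x⟫ := by
    have hcl : IsClosed {a : M | ⟪n₀, a⟫ ≤ ⟪n₀, x⟫} :=
      isClosed_le (by fun_prop) continuous_const
    have hsub : closure (interior K) ⊆ {a : M | ⟪n₀, a⟫ ≤ ⟪n₀, x⟫} := by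
      apply closure_minimal _ hcl
      intro a ha
      have := hf a ha
      rw [hfn, hfn] at this
      exact this.le
    intro w hw
    apply hsub
    rw [hv.closure_interior_eq_closure_of_nonempty_interior hint]
    exact subset_closure hw
  have hn0pos : 0 < ‖n₀‖ := norm_pos_iff.2 hn0ne
  set n : M := (‖n₀‖)⁻¹ • n₀ with hn
  have hnn : ‖n‖ = 1 := by
    rw [hn, norm_smul, norm_inv, norm_norm, inv_mul_cancel₀ hn0pos.ne']
  have hsupp' : ∀ w ∈ K, ⟪n, w - c⟫ ≤ ρ₁ := by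
    intro w hw
    have h1 : ⟪n, w⟫ ≤ ⟪n, x⟫ := by
      rw [hn, inner_smul_left, inner_smul_left]
      simp only [conj_trivial]
      exact mul_le_mul_of_nonneg_left (hsupp w hw) (by positivity)
    have h2 : ⟪n, x - c⟫ ≤ ρ₁ := by
      have := real_inner_le_norm n (x - c)
      rw [hnn, one_mul, ← dist_eq_norm, dist_comm, ← hxd] at this
      exact this
    rw [inner_sub_right] at h2 ⊢
    linarith
  refine ⟨c, n, hnn, hclosed, hsupp', ?_⟩
  -- the angle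
  have hτ0 : 0 ≤ τ := hτ.1
  have h1 : c₀ + ρ₀ • n ∈ K := hin (by
    simp [norm_smul, hnn, abs_of_pos hρ0])
  have h2 := hsupp' _ h1
  have hnv : c₀ + ρ₀ • n - c = ρ₀ • n - τ • v := by
    rw [hcdef]; abel
  rw [hnv, inner_sub_right, real_inner_smul_right n n ρ₀, real_inner_smul_right n v τ,
    real_inner_self_eq_norm_sq, hnn] at h2
  have h3 : ρ₀ - ρ₁ ≤ τ * ⟪n, v⟫ := by nlinarith
  have hτR : τ ≤ R₀ := by
    have h4 : c ∈ closedBall c₀ R₀ := hout (hclosed (mem_closedBall_self hρ1.le))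
    have h5 : ‖τ • v‖ ≤ R₀ := by simpa [hcdef] using h4
    rw [norm_smul, hv1, mul_one, Real.norm_eq_abs, abs_of_nonneg hτ0] at h5
    exact h5
  have h6 : 0 < τ * ⟪n, v⟫ := by linarith
  have h7 : 0 < ⟪n, v⟫ := by
    by_contra hcon
    push Not at hcon
    have := mul_nonpos_of_nonneg_of_nonpos hτ0 hcon
    linarith
  rw [div_le_iff₀ hR₀]
  nlinarith

/-- Dual vectors for two unit vectors that make a definite angle. -/
theorem sep_vectors {n n' v : M} (hn : ‖n‖ = 1) (hn' : ‖n'‖ = 1) (hv : ‖v‖ = 1) (h0 : ⟪n, v⟫ = 0)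
    {κ : ℝ} (hκ : 0 < κ) (h : κ ≤ ⟪n', v⟫) :
    ∃ p q : M, ⟪n, p⟫ = 1 ∧ ⟪n', p⟫ = 0 ∧ ‖p‖ ≤ 1 / κ ∧ ⟪n, q⟫ = 0 ∧ ⟪n', q⟫ = 1 ∧ ‖q‖ ≤ 1 / κ := by
  set s : ℝ := ⟪n', v⟫ with hs
  set t : ℝ := ⟪n, n'⟫ with ht
  have hs0 : 0 < s := hκ.trans_le h
  have hnn : ⟪n, n⟫ = 1 := by rw [real_inner_self_eq_norm_sq, hn]; norm_num
  have hnn' : ⟪n', n'⟫ = 1 := by rw [real_inner_self_eq_norm_sq, hn']; norm_num
  have hvv : ⟪v, v⟫ = 1 := by rw [real_inner_self_eq_norm_sq, hv]; norm_num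
  have hn'n : ⟪n', n⟫ = t := by rw [ht, real_inner_comm]
  have hvn : ⟪v, n⟫ = 0 := by rw [real_inner_comm]; exact h0
  have hvn' : ⟪v, n'⟫ = s := by rw [hs, real_inner_comm]
  -- Bessel
  have hB : t ^ 2 + s ^ 2 ≤ 1 := by
    have h1 : 0 ≤ ⟪n' - t • n - s • v, n' - t • n - s • v⟫ := real_inner_self_nonneg
    simp only [inner_sub_left, inner_sub_right, inner_smul_left, inner_smul_right, hnn, hnn', hvv,
      hn'n, ← ht, h0, hvn, hvn', ← hs, conj_trivial] at h1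
    nlinarith
  have h1t : 0 < 1 - t ^ 2 := by nlinarith
  refine ⟨(1 / (1 - t ^ 2)) • (n - t • n'), (1 / s) • v, ?_, ?_, ?_, ?_, ?_, ?_⟩
  · rw [inner_smul_right, inner_sub_right, inner_smul_right, hnn, ← ht]
    field_simp
  · rw [inner_smul_right, inner_sub_right, inner_smul_right, hn'n, hnn']
    simp
  · -- norm bound
    have hsq : ‖(1 / (1 - t ^ 2)) • (n - t • n')‖ ^ 2 = 1 / (1 - t ^ 2) := by
      rw [← real_inner_self_eq_norm_sq]
      simp only [inner_sub_left, inner_sub_right, inner_smul_left, inner_smul_right, hnn, hnn',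
        hn'n, ← ht, conj_trivial]
      field_simp
      ring
    have hkey : 1 / (1 - t ^ 2) ≤ (1 / κ) ^ 2 := by
      rw [one_div_pow]
      apply one_div_le_one_div_of_le (by positivity)
      nlinarith
    exact abs_le_of_sq_le_sq' (by rw [hsq]; exact hkey) (by positivity) |>.2
  · rw [inner_smul_right, h0, mul_zero]
  · rw [inner_smul_right, ← hs]
    field_simp
  · rw [norm_smul, hv, mul_one, Real.norm_eq_abs, abs_of_pos (by positivity)]
    exact one_div_le_one_div_of_le hκ h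

/-- Three inscribed balls tangent to support planes with pairwise transverse normals. -/
theorem exists_three (hM : finrank ℝ M = 3) {K : Set M} (hc : IsCompact K) (hv : Convex ℝ K)
    {c₀ : M} {ρ₀ R₀ ρ₁ : ℝ} (hρ1 : 0 < ρ₁) (hρ : ρ₁ < ρ₀) (hin : closedBall c₀ ρ₀ ⊆ K)
    (hout : K ⊆ closedBall c₀ R₀) {κ : ℝ} (hκ0 : 0 < κ) (hκ : κ ≤ (ρ₀ - ρ₁) / R₀) :
    ∃ c n : Fin 3 → M, (∀ i, ‖n i‖ = 1) ∧ (∀ i, closedBall (c i) ρ₁ ⊆ K) ∧
      (∀ i, ∀ w ∈ K, ⟪n i, w - c i⟫ ≤ ρ₁) ∧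
      (∀ i j, i ≠ j → ∃ p q : M, ⟪n i, p⟫ = 1 ∧ ⟪n j, p⟫ = 0 ∧ ‖p‖ ≤ 1 / κ ∧
        ⟪n i, q⟫ = 0 ∧ ⟪n j, q⟫ = 1 ∧ ‖q‖ ≤ 1 / κ) := by
  obtain ⟨v₁, hv₁, -, -⟩ := exists_unit_orthogonal hM (0 : M) 0
  obtain ⟨c₁, n₁, h1n, h1b, h1s, -⟩ := exists_triple hc hv hρ1 hρ hin hout hv₁
  obtain ⟨v₂, hv₂, h21, -⟩ := exists_unit_orthogonal hM n₁ n₁
  obtain ⟨c₂, n₂, h2n, h2b, h2s, h2a⟩ := exists_triple hc hv hρ1 hρ hin hout hv₂
  obtain ⟨v₃, hv₃, h31, h32⟩ := exists_unit_orthogonal hM n₁ n₂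
  obtain ⟨c₃, n₃, h3n, h3b, h3s, h3a⟩ := exists_triple hc hv hρ1 hρ hin hout hv₃
  have s12 := sep_vectors h1n h2n hv₂ h21 hκ0 (hκ.trans h2a)
  have s13 := sep_vectors h1n h3n hv₃ h31 hκ0 (hκ.trans h3a)
  have s23 := sep_vectors h2n h3n hv₃ h32 hκ0 (hκ.trans h3a)
  refine ⟨![c₁, c₂, c₃], ![n₁, n₂, n₃], ?_, ?_, ?_, ?_⟩
  · intro i; fin_cases i <;> simp [h1n, h2n, h3n]
  · intro i; fin_cases i <;> simp [h1b, h2b, h3b]
  · intro i; fin_cases i <;> simpa using by first | exact h1s | exact h2s | exact h3s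
  · intro i j hij
    obtain ⟨p12, q12, a1, a2, a3, a4, a5, a6⟩ := s12
    obtain ⟨p13, q13, b1, b2, b3, b4, b5, b6⟩ := s13
    obtain ⟨p23, q23, d1, d2, d3, d4, d5, d6⟩ := s23
    rw [one_div] at a3 a6 b3 b6 d3 d6
    fin_cases i <;> fin_cases j <;> simp at hij ⊢
    · exact ⟨p12, a1, a2, a3, q12, a4, a5, a6⟩
    · exact ⟨p13, b1, b2, b3, q13, b4, b5, b6⟩
    · exact ⟨q12, a5, a4, a6, p12, a2, a1, a3⟩
    · exact ⟨p23, d1, d2, d3, q23, d4, d5, d6⟩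
    · exact ⟨q13, b5, b4, b6, p13, b2, b1, b3⟩
    · exact ⟨q23, d5, d4, d6, p23, d2, d1, d3⟩

section measure

variable [MeasurableSpace M] [BorelSpace M]

/-- A set squeezed in two transverse thin slabs is small: `k ^ 2` disjoint translates of it fit in
any set containing them. -/
theorem thin_packing (ν : Measure M) [ν.IsAddHaarMeasure] {S : Set M} (hSm : MeasurableSet S)
    {n n' p q : M} {A A' δ : ℝ} (hδ : 0 < δ)
    (h1 : ∀ w ∈ S, A - δ < ⟪n, w⟫ ∧ ⟪n, w⟫ ≤ A) (h2 : ∀ w ∈ S, A' - δ < ⟪n', w⟫ ∧ ⟪n', w⟫ ≤ A')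
    (hnp : ⟪n, p⟫ = 1) (hn'p : ⟪n', p⟫ = 0) (hnq : ⟪n, q⟫ = 0) (hn'q : ⟪n', q⟫ = 1) (k : ℕ)
    {Reg : Set M} (hreg : ∀ w ∈ S, ∀ a < k, ∀ b < k, w + ((a : ℝ) * δ) • p + ((b : ℝ) * δ) • q ∈ Reg) :
    (k : ℝ≥0∞) ^ 2 * ν S ≤ ν Reg := by
  classical
  set d : ℕ × ℕ → M := fun ab => ((ab.1 : ℝ) * δ) • p + ((ab.2 : ℝ) * δ) • q with hd
  set T : ℕ × ℕ → Set M := fun ab => (fun w => w + (-(d ab))) ⁻¹' S with hT
  have hTm : ∀ ab, MeasurableSet (T ab) := fun ab => hSm.preimage (by fun_prop)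
  have hTν : ∀ ab, ν (T ab) = ν S := fun ab => measure_preimage_add_right ν _ S
  have hinfo : ∀ ab, ∀ w ∈ T ab, A - δ + (ab.1 : ℝ) * δ < ⟪n, w⟫ ∧ ⟪n, w⟫ ≤ A + (ab.1 : ℝ) * δ ∧
      A' - δ + (ab.2 : ℝ) * δ < ⟪n', w⟫ ∧ ⟪n', w⟫ ≤ A' + (ab.2 : ℝ) * δ := by
    intro ab w hw
    have hw' : w + (-(d ab)) ∈ S := hw
    have e1 : ⟪n, w + (-(d ab))⟫ = ⟪n, w⟫ - (ab.1 : ℝ) * δ := by
      simp only [hd, inner_add_right, inner_neg_right, inner_smul_right, hnp, hnq]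
      ring
    have e2 : ⟪n', w + (-(d ab))⟫ = ⟪n', w⟫ - (ab.2 : ℝ) * δ := by
      simp only [hd, inner_add_right, inner_neg_right, inner_smul_right, hn'p, hn'q]
      ring
    have h3 := h1 _ hw'
    have h4 := h2 _ hw'
    rw [e1] at h3
    rw [e2] at h4
    refine ⟨by linarith [h3.1], by linarith [h3.2], by linarith [h4.1], by linarith [h4.2]⟩
  have hnat : ∀ (a a' : ℕ) (X B : ℝ), B - δ + (a : ℝ) * δ < X → X ≤ B + (a' : ℝ) * δ → a ≤ a' := by
    intro a a' X B h3 h4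
    by_contra hcon
    push Not at hcon
    have : (a' : ℝ) + 1 ≤ a := by exact_mod_cast hcon
    nlinarith
  have hdisj : (↑(Finset.range k ×ˢ Finset.range k) : Set (ℕ × ℕ)).PairwiseDisjoint T := by
    intro ab _ ab' _ hne
    rw [Function.onFun, Set.disjoint_left]
    intro w hw hw'
    have i1 := hinfo ab w hw
    have i2 := hinfo ab' w hw'
    apply hne
    have e1 : ab.1 = ab'.1 := le_antisymm (hnat _ _ _ _ i1.1 i2.2.1) (hnat _ _ _ _ i2.1 i1.2.1)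
    have e2 : ab.2 = ab'.2 :=
      le_antisymm (hnat _ _ _ _ i1.2.2.1 i2.2.2.2) (hnat _ _ _ _ i2.2.2.1 i1.2.2.2)
    exact Prod.ext e1 e2
  have hsum : ν (⋃ ab ∈ Finset.range k ×ˢ Finset.range k, T ab)
      = ∑ ab ∈ Finset.range k ×ˢ Finset.range k, ν (T ab) :=
    measure_biUnion_finset hdisj (fun ab _ => hTm ab)
  have hcount : ∑ ab ∈ Finset.range k ×ˢ Finset.range k, ν (T ab) = (k : ℝ≥0∞) ^ 2 * ν S := by
    simp only [hTν, Finset.sum_const, Finset.card_product, Finset.card_range, nsmul_eq_mul]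
    push_cast
    ring
  rw [← hcount, ← hsum]
  apply measure_mono
  intro w hw
  simp only [mem_iUnion, Finset.mem_product, Finset.mem_range, exists_prop] at hw
  obtain ⟨ab, ⟨ha, hb⟩, hw⟩ := hw
  have := hreg _ hw ab.1 ha ab.2 hb
  have e : w + (-(d ab)) + ((ab.1 : ℝ) * δ) • p + ((ab.2 : ℝ) * δ) • q = w := by
    simp only [hd]
    abel
  rwa [e] at this

end measure

/-- Expansion of the squared distance along a line. -/
theorem line_norm_sq (d v : M) (t : ℝ) :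
    ‖d + t • v‖ ^ 2 = ‖d‖ ^ 2 + 2 * t * ⟪d, v⟫ + t ^ 2 * ‖v‖ ^ 2 := by
  rw [← real_inner_self_eq_norm_sq, ← real_inner_self_eq_norm_sq d, ← real_inner_self_eq_norm_sq v]
  simp only [inner_add_left, inner_add_right, inner_smul_left, inner_smul_right, conj_trivial]
  rw [real_inner_comm d v]
  ring

/-- A line through a point well inside a ball meets the ball in a long chord. -/
theorem fiber_ball_large {p v c : M} (hv : v ≠ 0) {ρ g h : ℝ} (hh : 0 ≤ h) (hg : 0 ≤ g)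
    (h2g : 2 * g ≤ ρ) (hsq : h ^ 2 ≤ 2 * g * ρ) {t₁ : ℝ} (ht : ‖p + t₁ • v - c‖ ≤ ρ - 2 * g) :
    ENNReal.ofReal (2 * h / ‖v‖) ≤ volume {t : ℝ | ‖p + t • v - c‖ ≤ ρ} := by
  have hvn : 0 < ‖v‖ := norm_pos_iff.2 hv
  set d : M := p - c with hd
  have hline : ∀ t : ℝ, p + t • v - c = d + t • v := by
    intro t; rw [hd]; abel
  set t₀ : ℝ := -⟪d, v⟫ / ‖v‖ ^ 2 with ht₀
  have hid : ∀ t : ℝ, ‖d + t • v‖ ^ 2 = ‖d + t₀ • v‖ ^ 2 + (t - t₀) ^ 2 * ‖v‖ ^ 2 := by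
    intro t
    rw [line_norm_sq, line_norm_sq]
    have h3 : t₀ * ‖v‖ ^ 2 = -⟪d, v⟫ := by
      rw [ht₀]; field_simp
    have h4 : ⟪d, v⟫ = -(t₀ * ‖v‖ ^ 2) := by linarith
    rw [h4]
    ring
  have hρ : 0 ≤ ρ - 2 * g := by linarith
  have hmin : ‖d + t₀ • v‖ ^ 2 ≤ (ρ - 2 * g) ^ 2 := by
    have h5 : ‖d + t₁ • v‖ ^ 2 ≤ (ρ - 2 * g) ^ 2 := by
      rw [← hline]
      exact pow_le_pow_left₀ (norm_nonneg _) ht 2
    have h6 := hid t₁
    have h7 : 0 ≤ (t₁ - t₀) ^ 2 * ‖v‖ ^ 2 := by positivity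
    linarith
  have hsub : Icc (t₀ - h / ‖v‖) (t₀ + h / ‖v‖) ⊆ {t : ℝ | ‖p + t • v - c‖ ≤ ρ} := by
    intro t ht'
    simp only [mem_setOf_eq]
    rw [hline]
    have hρ0 : 0 ≤ ρ := by linarith
    apply abs_le_of_sq_le_sq' _ hρ0 |>.2
    rw [hid]
    have h8 : |t - t₀| ≤ h / ‖v‖ := by
      rw [abs_le]
      constructor <;> linarith [ht'.1, ht'.2]
    have h9 : (t - t₀) ^ 2 * ‖v‖ ^ 2 ≤ h ^ 2 := by
      have h10 : |t - t₀| * ‖v‖ ≤ h := by
        rw [le_div_iff₀ hvn] at h8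
        exact h8
      have h11 : (|t - t₀| * ‖v‖) ^ 2 ≤ h ^ 2 :=
        pow_le_pow_left₀ (by positivity) h10 2
      rw [mul_pow, sq_abs] at h11
      exact h11
    nlinarith
  refine le_trans (le_of_eq ?_) (measure_mono hsub)
  rw [Real.volume_Icc]
  congr 1
  ring

/-- A line meets a ball of radius `g` in a set of measure at most `4 g / |v|` of parameters. -/
theorem fiber_ball_small {p v a : M} (hv : v ≠ 0) {g : ℝ} (hg : 0 ≤ g) :
    volume {t : ℝ | p + t • v ∈ closedBall a g} ≤ ENNReal.ofReal (4 * g / ‖v‖) := by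
  have hvn : 0 < ‖v‖ := norm_pos_iff.2 hv
  rcases ({t : ℝ | p + t • v ∈ closedBall a g}).eq_empty_or_nonempty with hemp | ⟨t₁, ht₁⟩
  · rw [hemp]; simp
  have hsub : {t : ℝ | p + t • v ∈ closedBall a g} ⊆ Icc (t₁ - 2 * g / ‖v‖) (t₁ + 2 * g / ‖v‖) := by
    intro t ht
    have h1 : dist (p + t • v) (p + t₁ • v) ≤ 2 * g := by
      have h2 : dist (p + t • v) a ≤ g := ht
      have h3 : dist (p + t₁ • v) a ≤ g := ht₁
      have := dist_triangle_right (p + t • v) (p + t₁ • v) a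
      linarith
    rw [dist_eq_norm] at h1
    have e : p + t • v - (p + t₁ • v) = (t - t₁) • v := by
      rw [sub_smul]; abel
    rw [e, norm_smul, Real.norm_eq_abs] at h1
    have h4 : |t - t₁| ≤ 2 * g / ‖v‖ := by
      rw [le_div_iff₀ hvn]; exact h1
    rw [abs_le] at h4
    constructor <;> linarith [h4.1, h4.2]
  refine (measure_mono hsub).trans (le_of_eq ?_)
  rw [Real.volume_Icc]
  congr 1
  ring

end Vale.Agent.Lib.P243b
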