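import Mathlib

/-!
Layer cake bound for a function dominating a cone over a planar set.
-/

open MeasureTheory Set Module
open scoped ENNReal

noncomputable section

namespace Vale.Agent.Lib.P243b

variable {X : Type*} [NormedAddCommGroup X] [NormedSpace ℝ X] [MeasurableSpace X] [BorelSpace X]
  [FiniteDimensional ℝ X]

/-- The integral of the squared profile. -/
theorem integral_profile_sq {L : ℝ} (hL : 0 < L) :
    ∫ t in (0 : ℝ)..L, (1 - t / L) ^ 2 = L / 3 := by
  have hne : L ≠ 0 := hL.ne'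
  have hder : ∀ t ∈ uIcc 0 L, HasDerivAt (fun t : ℝ => -(L / 3) * (1 - t / L) ^ 3)
      ((1 - t / L) ^ 2) t := by
    intro t _
    have h1 : HasDerivAt (fun t : ℝ => 1 - t / L) (-(1 / L)) t := by
      have := ((hasDerivAt_id' t).div_const L).const_sub 1
      simpa using this
    have h2 := (h1.pow 3).const_mul (-(L / 3))
    refine h2.congr_deriv ?_
    norm_num
    field_simp
  rw [intervalIntegral.integral_eq_sub_of_hasDerivAt hder]
  · field_simp
    ring
  · apply Continuous.intervalIntegrable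
    fun_prop

/-- If `f` is at least `(1 - r) L` on the homothetic copy of `P` with ratio `r` about `y0`, then
`L |P| ≤ 3 ∫ f`. -/
theorem cone_bound (hdim : finrank ℝ X = 2) (μ : Measure X) [μ.IsAddHaarMeasure]
    {P : Set X} {y0 : X} {L : ℝ} (hL : 0 < L)
    {f : X → ℝ} (hfm : Measurable f) (hf0 : ∀ y, 0 ≤ f y)
    (hf : ∀ r ∈ Icc (0 : ℝ) 1, ∀ y' ∈ P, (1 - r) * L ≤ f (AffineMap.homothety y0 r y')) :
    ENNReal.ofReal L * μ P ≤ 3 * ∫⁻ y, ENNReal.ofReal (f y) ∂μ := by
  have hlayer : ∫⁻ y, ENNReal.ofReal (f y) ∂μ = ∫⁻ t in Ioi (0 : ℝ), μ {a | t ≤ f a} :=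
    lintegral_eq_lintegral_meas_le μ (Filter.Eventually.of_forall hf0) hfm.aemeasurable
  have hlevel : ∀ t ∈ Ioo (0 : ℝ) L,
      ENNReal.ofReal ((1 - t / L) ^ 2) * μ P ≤ μ {a | t ≤ f a} := by
    intro t ht
    have hr : 1 - t / L ∈ Icc (0 : ℝ) 1 := by
      constructor
      · have : t / L ≤ 1 := by rw [div_le_one hL]; exact ht.2.le
        linarith
      · have : 0 ≤ t / L := div_nonneg ht.1.le hL.le
        linarith
    have hsub : AffineMap.homothety y0 (1 - t / L) '' P ⊆ {a | t ≤ f a} := by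
      rintro _ ⟨y', hy', rfl⟩
      have := hf _ hr y' hy'
      have h2 : (1 - (1 - t / L)) * L = t := by field_simp; ring
      rw [h2] at this
      exact this
    refine le_trans (le_of_eq ?_) (measure_mono hsub)
    rw [Measure.addHaar_image_homothety, hdim, abs_of_nonneg (by positivity)]
  have hint : ENNReal.ofReal (L / 3) * μ P ≤ ∫⁻ t in Ioi (0 : ℝ), μ {a | t ≤ f a} := by
    have h1 : ∫⁻ t in Ioo (0 : ℝ) L, ENNReal.ofReal ((1 - t / L) ^ 2) = ENNReal.ofReal (L / 3) := by
      rw [← ofReal_integral_eq_lintegral_ofReal]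
      · congr 1
        rw [← integral_Ioc_eq_integral_Ioo, ← intervalIntegral.integral_of_le hL.le,
          integral_profile_sq hL]
      · exact (Continuous.integrableOn_Icc (by fun_prop)).mono_set Ioo_subset_Icc_self
      · exact Filter.Eventually.of_forall fun t => by positivity
    calc ENNReal.ofReal (L / 3) * μ P
        = ∫⁻ t in Ioo (0 : ℝ) L, ENNReal.ofReal ((1 - t / L) ^ 2) * μ P := by
          rw [lintegral_mul_const _ (by fun_prop), h1]
      _ ≤ ∫⁻ t in Ioo (0 : ℝ) L, μ {a | t ≤ f a} :=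
          setLIntegral_mono' measurableSet_Ioo hlevel
      _ ≤ ∫⁻ t in Ioi (0 : ℝ), μ {a | t ≤ f a} :=
          lintegral_mono_set Ioo_subset_Ioi_self
  rw [hlayer]
  have h3 : ENNReal.ofReal L = 3 * ENNReal.ofReal (L / 3) := by
    have : (3 : ℝ≥0∞) = ENNReal.ofReal 3 := by simp
    rw [this, ← ENNReal.ofReal_mul (by norm_num)]
    congr 1
    ring
  rw [h3, mul_assoc]
  gcongr

end Vale.Agent.Lib.P243b
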