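import Mathlib

/-!
The explicit constants of the argument.
-/

noncomputable section

namespace Vale.Agent.Lib.P243b

/-- Inner radius of the normal position. -/
def rho0 : ℝ := 1 / 5
/-- Outer radius of the normal position. -/
def R0 : ℝ := 21 / 10
/-- Radius of the inscribed balls. -/
def rho1 : ℝ := 1 / 10
/-- Diameter bound. -/
def D0 : ℝ := 21 / 5
/-- Transversality constant. -/
def kappa : ℝ := 1 / 21
/-- Number of translates in the packing. -/
def kk : ℕ := 46000000
/-- Slack for the translates. -/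
def slack : ℝ := 4
/-- The thickness parameter. -/
def eta : ℝ := 1 / (21 * 46000000)
/-- Half chord of the inscribed ball through the small ball. -/
def h0 : ℝ := eta / 84
/-- The radius of the small ball. -/
def g0 : ℝ := 5 * h0 ^ 2
/-- The relative volume of the small ball. -/
def xI : ℝ := (g0 / R0) ^ 3
/-- The weight defect on the thin set. -/
def aa : ℝ := 3 * D0 * xI / eta
/-- The relative volume bound of the thin set. -/
def theta : ℝ := 3 * ((R0 + slack) / rho0) ^ 3 / (kk : ℝ) ^ 2

theorem rho0_pos : 0 < rho0 := by norm_num [rho0]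
theorem R0_pos : 0 < R0 := by norm_num [R0]
theorem rho1_pos : 0 < rho1 := by norm_num [rho1]
theorem rho1_lt : rho1 < rho0 := by norm_num [rho1, rho0]
theorem kappa_pos : 0 < kappa := by norm_num [kappa]
theorem kappa_le : kappa ≤ (rho0 - rho1) / R0 := by norm_num [kappa, rho0, rho1, R0]
theorem eta_pos : 0 < eta := by norm_num [eta]
theorem h0_pos : 0 < h0 := by norm_num [h0, eta]
theorem g0_pos : 0 < g0 := by norm_num [g0, h0, eta]
theorem xI_pos : 0 < xI := by norm_num [xI, g0, h0, eta, R0]
theorem aa_pos : 0 < aa := by norm_num [aa, xI, g0, h0, eta, R0, D0]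
theorem aa_le : aa ≤ 1 := by norm_num [aa, xI, g0, h0, eta, R0, D0]
theorem g0_small : 3 * g0 ≤ rho1 := by norm_num [g0, h0, eta, rho1]
theorem h0_sq : h0 ^ 2 ≤ 2 * g0 * rho1 := by norm_num [g0, h0, eta, rho1]
theorem four_g_le : 4 * g0 ≤ h0 := by norm_num [g0, h0, eta]
theorem cond_ell : 4 * g0 * D0 ≤ h0 * eta := by norm_num [g0, h0, eta, D0]
theorem eta_le : eta / D0 ≤ 3 := by norm_num [eta, D0]
theorem kk_pos : (0 : ℝ) < (kk : ℝ) := by norm_num [kk]
/-- The displacement of the translates stays within the slack. -/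
theorem slack_eq : 2 * (kk : ℝ) * (2 * eta) * (1 / kappa) ≤ slack := by
  norm_num [kk, eta, kappa, slack]
theorem aa_eta : aa * (eta / D0) = 3 * xI := by
  have h1 : eta ≠ 0 := eta_pos.ne'
  have h2 : D0 ≠ 0 := by norm_num [D0]
  unfold aa
  field_simp
/-- The defect on the thin set is compensated. -/
theorem main_numeric : 1 - xI ≤ (1 - xI / 2) * (1 - aa * theta) := by
  norm_num [aa, theta, xI, g0, h0, eta, R0, D0, kk, slack, rho0]
/-- The final constant. -/
theorem final_numeric : 1 / 3 + 1 / (10 : ℝ) ^ 66 ≤ 1 / (3 * (1 - xI / 2)) := by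
  norm_num [xI, g0, h0, eta, R0]

end Vale.Agent.Lib.P243b
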