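import Vale.Agent.Lib.P243b.Cone

/-!
Fibre estimates for a compact convex set in `X × ℝ`: the excess over the cone.
-/

open MeasureTheory Set Module
open scoped ENNReal

noncomputable section

namespace Vale.Agent.Lib.P243b

variable {X : Type*} [NormedAddCommGroup X] [NormedSpace ℝ X] [MeasurableSpace X] [BorelSpace X]
  [FiniteDimensional ℝ X]

variable {K : Set (X × ℝ)}

/-- A fibre of a compact set is compact. -/
theorem fibre_compact (hc : IsCompact K) (y : X) : IsCompact (Prod.mk y ⁻¹' K) := by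
  have hcl : IsClosed (Prod.mk y ⁻¹' K) := hc.isClosed.preimage (by fun_prop)
  have hsub : Prod.mk y ⁻¹' K ⊆ Prod.snd '' K := fun s hs => ⟨(y, s), hs, rfl⟩
  exact (hc.image continuous_snd).of_isClosed_subset hcl hsub

/-- Fibres of a compact convex set are intervals. -/
theorem fibre_eq_Icc (hc : IsCompact K) (hconv : Convex ℝ K) (y : X)
    (hne : (Prod.mk y ⁻¹' K).Nonempty) :
    Prod.mk y ⁻¹' K = Icc (sInf (Prod.mk y ⁻¹' K)) (sSup (Prod.mk y ⁻¹' K)) := by
  have hcomp := fibre_compact hc y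
  have hord : (Prod.mk y ⁻¹' K).OrdConnected := by
    apply Convex.ordConnected
    intro s hs t ht a b ha hb hab
    have := hconv hs ht ha hb hab
    simp only [mem_preimage] at *
    convert this using 1
    ext
    · simp only [Prod.smul_mk, Prod.mk_add_mk]
      rw [← add_smul, hab, one_smul]
    · simp
  apply Subset.antisymm
  · intro x hx
    exact ⟨csInf_le hcomp.bddBelow hx, le_csSup hcomp.bddAbove hx⟩
  · exact hord.out (hcomp.sInf_mem hne) (hcomp.sSup_mem hne)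

/-- The fibre length function. -/
def fibLen (K : Set (X × ℝ)) (y : X) : ℝ := (volume (Prod.mk y ⁻¹' K)).toReal

theorem fibLen_nonneg (y : X) : 0 ≤ fibLen K y := ENNReal.toReal_nonneg

theorem ofReal_fibLen (hc : IsCompact K) (y : X) :
    ENNReal.ofReal (fibLen K y) = volume (Prod.mk y ⁻¹' K) :=
  ENNReal.ofReal_toReal (fibre_compact hc y).measure_lt_top.ne

theorem measurable_fibLen {K : Set (X × ℝ)} (hm : MeasurableSet K) : Measurable (fibLen K) :=
  (measurable_measure_prodMk_left hm).ennreal_toReal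

/-- The three point computation behind the excess estimate. -/
theorem chord_in_body (hv : Convex ℝ K)
    {y0 : X} {α β : ℝ} (hα : (y0, α) ∈ K) (hβ : (y0, β) ∈ K) (hαβ : α < β)
    {ℓ : X × ℝ → ℝ}
    (hℓ : ∀ (z₁ z₂ : X × ℝ) (a b : ℝ), a + b = 1 → ℓ (a • z₁ + b • z₂) = a * ℓ z₁ + b * ℓ z₂)
    (hℓ0 : ∀ z ∈ K, 0 ≤ ℓ z) {η : ℝ} (hℓα : η ≤ ℓ (y0, α)) (hℓβ : η ≤ ℓ (y0, β))
    {r : ℝ} (hr : r ∈ Icc (0 : ℝ) 1) {y' : X} {ζ : ℝ} (hζ : (y', ζ) ∈ K)
    {s : ℝ} (hs : s ∈ Icc ((1 - r) * α + r * ζ) ((1 - r) * β + r * ζ)) :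
    ((1 - r) • y0 + r • y', s) ∈ K ∧ (1 - r) * η ≤ ℓ ((1 - r) • y0 + r • y', s) := by
  rcases eq_or_lt_of_le hr.2 with h1 | h1
  · subst h1
    have hs' : s = ζ := by
      have h1 := hs.1
      have h2 := hs.2
      simp at h1 h2
      linarith
    subst hs'
    have : ((1 - (1 : ℝ)) • y0 + (1 : ℝ) • y', s) = (y', s) := by simp
    rw [this]
    exact ⟨hζ, by simpa using hℓ0 _ hζ⟩
  · have hpos : 0 < 1 - r := by linarith
    set s' : ℝ := (s - r * ζ) / (1 - r) with hs'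
    have hss' : s = (1 - r) * s' + r * ζ := by
      rw [hs']; field_simp; ring
    have hs'1 : α ≤ s' := by
      rw [hs', le_div_iff₀ hpos]
      nlinarith [hs.1]
    have hs'2 : s' ≤ β := by
      rw [hs', div_le_iff₀ hpos]
      nlinarith [hs.2]
    have hd : 0 < β - α := by linarith
    set a' : ℝ := (β - s') / (β - α) with ha'
    set b' : ℝ := (s' - α) / (β - α) with hb'
    have ha'0 : 0 ≤ a' := div_nonneg (by linarith) hd.le
    have hb'0 : 0 ≤ b' := div_nonneg (by linarith) hd.le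
    have hab' : a' + b' = 1 := by
      rw [ha', hb']; field_simp; ring
    have hpt : a' • (y0, α) + b' • (y0, β) = (y0, s') := by
      ext
      · simp only [Prod.smul_mk, Prod.mk_add_mk]
        rw [← add_smul, hab', one_smul]
      · simp only [Prod.smul_mk, Prod.mk_add_mk, smul_eq_mul]
        rw [ha', hb']; field_simp; ring
    have hm : (y0, s') ∈ K := by
      rw [← hpt]
      exact hv hα hβ ha'0 hb'0 hab'
    have hℓm : η ≤ ℓ (y0, s') := by
      rw [← hpt, hℓ _ _ _ _ hab']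
      have h8 : a' * η + b' * η = η := by rw [← add_mul, hab', one_mul]
      nlinarith [mul_nonneg ha'0 (sub_nonneg.2 hℓα), mul_nonneg hb'0 (sub_nonneg.2 hℓβ)]
    have hpt2 : (1 - r) • (y0, s') + r • (y', ζ) = ((1 - r) • y0 + r • y', s) := by
      ext
      · simp
      · simp [hss']
    rw [← hpt2]
    refine ⟨hv hm hζ hpos.le hr.1 (by ring), ?_⟩
    rw [hℓ _ _ _ _ (by ring)]
    have := hℓ0 _ hζ
    nlinarith [hr.1]

/-- The pointwise excess estimate over the cone. -/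
theorem pointwise (hc : IsCompact K) (hv : Convex ℝ K)
    {y0 : X} {α β : ℝ} (hα : (y0, α) ∈ K) (hβ : (y0, β) ∈ K) (hαβ : α < β)
    {ℓ : X × ℝ → ℝ}
    (hℓ : ∀ (z₁ z₂ : X × ℝ) (a b : ℝ), a + b = 1 → ℓ (a • z₁ + b • z₂) = a * ℓ z₁ + b * ℓ z₂)
    (hℓ0 : ∀ z ∈ K, 0 ≤ ℓ z) {η : ℝ} (hη : 0 < η) (hℓα : η ≤ ℓ (y0, α)) (hℓβ : η ≤ ℓ (y0, β))
    {G : Set (X × ℝ)} (hGm : MeasurableSet G) (hGK : G ⊆ K)
    {ℓG b : ℝ} (hb0 : 0 < b) (hGℓ : ∀ z ∈ G, ℓ z ≤ ℓG)
    (hGb : ∀ y, (Prod.mk y ⁻¹' G).Nonempty → ENNReal.ofReal b ≤ volume (Prod.mk y ⁻¹' K))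
    (hGe : ∀ y, volume (Prod.mk y ⁻¹' G) ≤ ENNReal.ofReal (b / 2))
    (hcond : 2 * (β - α) * ℓG ≤ b * η)
    {r : ℝ} (hr : r ∈ Icc (0 : ℝ) 1) {y' : X} (hy' : y' ∈ Prod.fst '' K) :
    (1 - r) * (β - α) + fibLen G (AffineMap.homothety y0 r y')
      ≤ fibLen K (AffineMap.homothety y0 r y') := by
  obtain ⟨⟨y'', ζ⟩, hζ, rfl⟩ := hy'
  simp only at hζ ⊢
  set y : X := AffineMap.homothety y0 r y'' with hy
  have hyy : y = (1 - r) • y0 + r • y'' := by
    rw [hy, AffineMap.homothety_apply]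
    simp only [vsub_eq_sub, vadd_eq_add, sub_smul, one_smul, smul_sub]
    abel
  set T : Set ℝ := Icc ((1 - r) * α + r * ζ) ((1 - r) * β + r * ζ) with hT
  have hTmem : ∀ s ∈ T, (y, s) ∈ K ∧ (1 - r) * η ≤ ℓ (y, s) := by
    intro s hs
    rw [hyy]
    exact chord_in_body hv hα hβ hαβ hℓ hℓ0 hℓα hℓβ hr hζ hs
  have hd : 0 < β - α := by linarith
  have h1r : 0 ≤ 1 - r := by linarith [hr.2]
  have hTvol : volume T = ENNReal.ofReal ((1 - r) * (β - α)) := by
    rw [hT, Real.volume_Icc]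
    congr 1
    ring
  have hKfin : volume (Prod.mk y ⁻¹' K) ≠ ⊤ := (fibre_compact hc y).measure_lt_top.ne
  have hTsub : T ⊆ Prod.mk y ⁻¹' K := fun s hs => (hTmem s hs).1
  have hTle : (1 - r) * (β - α) ≤ fibLen K y := by
    have h2 : ENNReal.ofReal ((1 - r) * (β - α)) ≤ volume (Prod.mk y ⁻¹' K) := by
      rw [← hTvol]
      exact measure_mono hTsub
    exact (ENNReal.ofReal_le_iff_le_toReal hKfin).1 h2
  rcases (Prod.mk y ⁻¹' G).eq_empty_or_nonempty with hemp | hne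
  · have : fibLen G y = 0 := by
      unfold fibLen
      rw [hemp]
      simp
    rw [this, add_zero]
    exact hTle
  · have hbK : b ≤ fibLen K y := (ENNReal.ofReal_le_iff_le_toReal hKfin).1 (hGb y hne)
    have heG : fibLen G y ≤ b / 2 :=
      ENNReal.toReal_le_of_le_ofReal (by positivity) (hGe y)
    by_cases hcase : (1 - r) * (β - α) ≤ b / 2
    · linarith
    · push Not at hcase
      have hdisj : Disjoint T (Prod.mk y ⁻¹' G) := by
        rw [Set.disjoint_left]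
        intro s hsT hsG
        have h3 := (hTmem s hsT).2
        have h4 := hGℓ _ hsG
        have h5 : (1 - r) * η ≤ ℓG := h3.trans h4
        have h6 : 2 * (β - α) * ((1 - r) * η) ≤ 2 * (β - α) * ℓG :=
          mul_le_mul_of_nonneg_left h5 (by positivity)
        have h7 : b * η < 2 * (β - α) * ((1 - r) * η) := by
          have : b < 2 * ((1 - r) * (β - α)) := by linarith
          nlinarith
        linarith
      have hGfm : MeasurableSet (Prod.mk y ⁻¹' G) := hGm.preimage (by fun_prop)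
      have hun : volume (T ∪ Prod.mk y ⁻¹' G) = volume T + volume (Prod.mk y ⁻¹' G) :=
        measure_union hdisj hGfm
      have hsub : T ∪ Prod.mk y ⁻¹' G ⊆ Prod.mk y ⁻¹' K :=
        union_subset hTsub (fun s hs => hGK hs)
      have hle := measure_mono (μ := volume) hsub
      rw [hun, hTvol] at hle
      have hGfin : volume (Prod.mk y ⁻¹' G) ≠ ⊤ :=
        ne_top_of_le_ne_top hKfin (measure_mono (fun s hs => hGK hs))
      have := ENNReal.toReal_mono hKfin hle
      rw [ENNReal.toReal_add ENNReal.ofReal_ne_top hGfin,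
        ENNReal.toReal_ofReal (by positivity)] at this
      exact this

/-- The excess estimate: `L |P| + 3 |G| ≤ 3 |K|`. -/
theorem excess (hdim : finrank ℝ X = 2) (μ : Measure X) [μ.IsAddHaarMeasure]
    (hc : IsCompact K) (hv : Convex ℝ K)
    {y0 : X} {α β : ℝ} (hα : (y0, α) ∈ K) (hβ : (y0, β) ∈ K) (hαβ : α < β)
    {ℓ : X × ℝ → ℝ}
    (hℓ : ∀ (z₁ z₂ : X × ℝ) (a b : ℝ), a + b = 1 → ℓ (a • z₁ + b • z₂) = a * ℓ z₁ + b * ℓ z₂)
    (hℓ0 : ∀ z ∈ K, 0 ≤ ℓ z) {η : ℝ} (hη : 0 < η) (hℓα : η ≤ ℓ (y0, α)) (hℓβ : η ≤ ℓ (y0, β))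
    {G : Set (X × ℝ)} (hGm : MeasurableSet G) (hGK : G ⊆ K)
    {ℓG b : ℝ} (hb0 : 0 < b) (hGℓ : ∀ z ∈ G, ℓ z ≤ ℓG)
    (hGb : ∀ y, (Prod.mk y ⁻¹' G).Nonempty → ENNReal.ofReal b ≤ volume (Prod.mk y ⁻¹' K))
    (hGe : ∀ y, volume (Prod.mk y ⁻¹' G) ≤ ENNReal.ofReal (b / 2))
    (hcond : 2 * (β - α) * ℓG ≤ b * η) :
    ENNReal.ofReal (β - α) * μ (Prod.fst '' K) + 3 * (μ.prod volume) G
      ≤ 3 * (μ.prod volume) K := by
  have hKm : MeasurableSet K := hc.measurableSet
  have hGc : ∀ y, fibLen G y ≤ fibLen K y := by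
    intro y
    exact ENNReal.toReal_mono (fibre_compact hc y).measure_lt_top.ne
      (measure_mono (fun s hs => hGK hs))
  have hfm : Measurable fun y => fibLen K y - fibLen G y :=
    (measurable_fibLen hKm).sub (measurable_fibLen hGm)
  have hf0 : ∀ y, 0 ≤ fibLen K y - fibLen G y := fun y => sub_nonneg.2 (hGc y)
  have hcone := cone_bound hdim μ (P := Prod.fst '' K) (y0 := y0) (L := β - α) (by linarith)
    hfm hf0 (by
      intro r hr y' hy'
      have := pointwise hc hv hα hβ hαβ hℓ hℓ0 hη hℓα hℓβ hGm hGK hb0 hGℓ hGb hGe hcond hr hy'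
      linarith)
  have hGfin : ∀ y, ENNReal.ofReal (fibLen G y) = volume (Prod.mk y ⁻¹' G) := by
    intro y
    exact ENNReal.ofReal_toReal
      (ne_top_of_le_ne_top (fibre_compact hc y).measure_lt_top.ne
        (measure_mono (fun s hs => hGK hs)))
  have hKsplit : (μ.prod volume) K
      = ∫⁻ y, ENNReal.ofReal (fibLen K y - fibLen G y) ∂μ + (μ.prod volume) G := by
    rw [Measure.prod_apply hKm, Measure.prod_apply hGm, ← lintegral_add_right _
      (measurable_measure_prodMk_left hGm)]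
    refine lintegral_congr fun y => ?_
    rw [← ofReal_fibLen hc y, ← hGfin y, ← ENNReal.ofReal_add (hf0 y) (fibLen_nonneg y)]
    congr 1
    ring
  rw [hKsplit, mul_add]
  gcongr

/-- The excess estimate with no extra set: `L |P| ≤ 3 |K|`. -/
theorem chord_bound (hdim : finrank ℝ X = 2) (μ : Measure X) [μ.IsAddHaarMeasure]
    (hc : IsCompact K) (hv : Convex ℝ K)
    {y0 : X} {α β : ℝ} (hα : (y0, α) ∈ K) (hβ : (y0, β) ∈ K) (hαβ : α < β) :
    ENNReal.ofReal (β - α) * μ (Prod.fst '' K) ≤ 3 * (μ.prod volume) K := by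
  have := excess hdim μ hc hv hα hβ hαβ (ℓ := fun _ => 1) (η := 1) (G := ∅) (ℓG := 0) (b := 1)
    (by intro z₁ z₂ a b hab; simp [hab]) (by intro z _; norm_num) one_pos le_rfl le_rfl
    MeasurableSet.empty (empty_subset _) one_pos (by simp) (by simp) (by simp) (by simp)
  simpa using this

end Vale.Agent.Lib.P243b
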