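import Vale.Agent.Lib.P243b.Thin
import Vale.Agent.Lib.P243b.Fiber

/-!
The weighted fibre bound.
-/

open MeasureTheory Set Module Metric
open scoped ENNReal RealInnerProductSpace

noncomputable section

namespace Vale.Agent.Lib.P243b

section weight

variable {α : Type*} [MeasurableSpace α]

open Classical in
/-- The two valued weight: `1 - aa` on `N`, `1` off `N`. -/
def wt (N : Set α) (z : α) : ℝ≥0∞ := if z ∈ N then ENNReal.ofReal (1 - aa) else 1

theorem wt_measurable {N : Set α} (hN : MeasurableSet N) : Measurable (wt N) := by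
  classical
  unfold wt
  exact Measurable.ite hN measurable_const measurable_const

theorem wt_lintegral (m : Measure α) {N S : Set α} (hN : MeasurableSet N) (hS : MeasurableSet S)
    (hfin : m S ≠ ⊤) :
    ∫⁻ z in S, wt N z ∂m = ENNReal.ofReal ((m S).toReal - aa * (m (S ∩ N)).toReal) := by
  rw [← lintegral_inter_add_diff _ S hN]
  have h1 : ∫⁻ z in S ∩ N, wt N z ∂m = ENNReal.ofReal (1 - aa) * m (S ∩ N) := by
    rw [setLIntegral_congr_fun (g := fun _ => ENNReal.ofReal (1 - aa)) (hS.inter hN)]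
    · rw [setLIntegral_const]
    · intro z hz
      simp [wt, hz.2]
  have h2 : ∫⁻ z in S \ N, wt N z ∂m = m (S \ N) := by
    rw [setLIntegral_congr_fun (g := fun _ => 1) (hS.diff hN)]
    · rw [setLIntegral_const, one_mul]
    · intro z hz
      simp [wt, hz.2]
  rw [h1, h2]
  have hfin1 : m (S ∩ N) ≠ ⊤ := ne_top_of_le_ne_top hfin (measure_mono inter_subset_left)
  have hfin2 : m (S \ N) ≠ ⊤ := ne_top_of_le_ne_top hfin (measure_mono diff_subset)
  have hadd : (m S).toReal = (m (S ∩ N)).toReal + (m (S \ N)).toReal := by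
    rw [← measure_inter_add_diff S hN, ENNReal.toReal_add hfin1 hfin2]
  have h1a : 0 ≤ 1 - aa := by linarith [aa_le]
  rw [hadd]
  have e : (m (S ∩ N)).toReal + (m (S \ N)).toReal - aa * (m (S ∩ N)).toReal
      = (1 - aa) * (m (S ∩ N)).toReal + (m (S \ N)).toReal := by ring
  rw [e, ENNReal.ofReal_add (by positivity) ENNReal.toReal_nonneg, ENNReal.ofReal_mul h1a,
    ENNReal.ofReal_toReal hfin1, ENNReal.ofReal_toReal hfin2]

end weight

variable {M : Type*} [NormedAddCommGroup M] [InnerProductSpace ℝ M] [FiniteDimensional ℝ M]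
  [MeasurableSpace M] [BorelSpace M]
variable {X : Type*} [NormedAddCommGroup X] [NormedSpace ℝ X] [MeasurableSpace X] [BorelSpace X]
  [FiniteDimensional ℝ X]

/-- Points on a fibre. -/
theorem Psi_line (Ψ : (X × ℝ) ≃L[ℝ] M) (y : X) (t : ℝ) :
    Ψ (y, t) = Ψ (y, 0) + t • Ψ (0, 1) := by
  rw [← map_smul, ← map_add]
  simp

theorem Psi_v_ne (Ψ : (X × ℝ) ≃L[ℝ] M) : Ψ (0, 1) ≠ 0 := by
  intro h
  have h1 : ((0 : X), (1 : ℝ)) = 0 := Ψ.injective (by rw [h, map_zero])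
  have h2 : (1 : ℝ) = 0 := congrArg Prod.snd h1
  exact one_ne_zero h2

theorem ell_Psi_affine (Ψ : (X × ℝ) ≃L[ℝ] M) (c n : M) (z₁ z₂ : X × ℝ) (a b : ℝ) (hab : a + b = 1) :
    ell c n (Ψ (a • z₁ + b • z₂)) = a * ell c n (Ψ z₁) + b * ell c n (Ψ z₂) := by
  unfold ell
  rw [map_add, map_smul, map_smul]
  have e : a • Ψ z₁ + b • Ψ z₂ - c = a • (Ψ z₁ - c) + b • (Ψ z₂ - c) := by
    have : c = (a + b) • c := by rw [hab, one_smul]
    nth_rewrite 1 [this]
    rw [smul_sub, smul_sub, add_smul]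
    abel
  rw [e, inner_add_right, real_inner_smul_right, real_inner_smul_right]
  have : rho1 = (a + b) * rho1 := by rw [hab, one_mul]
  nth_rewrite 1 [this]
  ring

theorem ell_line (c n p v : M) (t z : ℝ) (hn : ‖n‖ = 1) :
    ell c n (p + t • v) ≤ ell c n (p + z • v) + |t - z| * ‖v‖ := by
  unfold ell
  have e : p + t • v - c = (p + z • v - c) + (t - z) • v := by
    rw [sub_smul]; abel
  rw [e, inner_add_right, real_inner_smul_right]
  have h1 := abs_real_inner_le_norm n v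
  rw [hn, one_mul] at h1
  have h2 : |(t - z) * ⟪n, v⟫| ≤ |t - z| * ‖v‖ := by
    rw [abs_mul]
    exact mul_le_mul_of_nonneg_left h1 (abs_nonneg _)
  have h3 := (abs_le.1 h2).1
  linarith

/-- Case one: both ends far from a support plane gives an excess. -/
theorem case_one (hdim : finrank ℝ X = 2) (μ : Measure X) [μ.IsAddHaarMeasure]
    (Ψ : (X × ℝ) ≃L[ℝ] M) {K : Set M} (hc : IsCompact K) (hv : Convex ℝ K) {c₀ : M}
    (hout : K ⊆ closedBall c₀ R0) {c n : M} (hn : ‖n‖ = 1) (hb : closedBall c rho1 ⊆ K)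
    (hs : ∀ w ∈ K, ⟪n, w - c⟫ ≤ rho1) {y : X} {α β : ℝ} (hα : Ψ (y, α) ∈ K) (hβ : Ψ (y, β) ∈ K)
    (hαβ : α < β) (hℓα : eta ≤ ell c n (Ψ (y, α))) (hℓβ : eta ≤ ell c n (Ψ (y, β))) :
    ENNReal.ofReal (β - α) * μ (Prod.fst '' (Ψ ⁻¹' K))
      + 3 * (μ.prod volume) (Ψ ⁻¹' smallBall c n) ≤ 3 * (μ.prod volume) (Ψ ⁻¹' K) := by
  have hK''c : IsCompact (Ψ ⁻¹' K) := Ψ.toHomeomorph.isCompact_preimage.2 hc
  have hK''v : Convex ℝ (Ψ ⁻¹' K) := hv.linear_preimage Ψ.toLinearEquiv.toLinearMap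
  set v : M := Ψ (0, 1) with hvdef
  have hv0 : v ≠ 0 := Psi_v_ne Ψ
  have hvn : 0 < ‖v‖ := norm_pos_iff.2 hv0
  have hlen : (β - α) * ‖v‖ ≤ D0 := by
    have h1 : dist (Ψ (y, β)) c₀ ≤ R0 := hout hβ
    have h2 : dist (Ψ (y, α)) c₀ ≤ R0 := hout hα
    have h3 := dist_triangle_right (Ψ (y, β)) (Ψ (y, α)) c₀
    rw [dist_eq_norm, Psi_line Ψ y β, Psi_line Ψ y α] at h3
    have e : Ψ (y, 0) + β • Ψ (0, 1) - (Ψ (y, 0) + α • Ψ (0, 1)) = (β - α) • Ψ (0, 1) := by
      rw [sub_smul]; abel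
    rw [e, norm_smul, Real.norm_eq_abs, abs_of_pos (by linarith)] at h3
    rw [← Psi_line, ← Psi_line] at h3
    have : D0 = 2 * R0 := by norm_num [D0, R0]
    rw [this]
    linarith
  have hGm : MeasurableSet (Ψ ⁻¹' smallBall c n) :=
    (isClosed_closedBall.preimage Ψ.continuous).measurableSet
  have hGK : Ψ ⁻¹' smallBall c n ⊆ Ψ ⁻¹' K :=
    preimage_mono ((smallBall_subset hn).trans hb)
  have hfib : ∀ (y : X) (t : ℝ), Ψ (y, t) = Ψ (y, 0) + t • v := fun y t => Psi_line Ψ y t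
  refine excess hdim μ hK''c hK''v (y0 := y) (α := α) (β := β) hα hβ hαβ
    (ℓ := fun z => ell c n (Ψ z)) (η := eta) (G := Ψ ⁻¹' smallBall c n) (ℓG := 4 * g0)
    (b := 2 * h0 / ‖v‖) (ell_Psi_affine Ψ c n) ?_ eta_pos hℓα hℓβ hGm hGK ?_ ?_ ?_ ?_ ?_
  · intro z hz
    have := hs _ hz
    simp only [ell]
    linarith
  · have := h0_pos
    positivity
  · intro z hz
    exact smallBall_ell hn hz
  · rintro y' ⟨t₁, ht₁⟩
    have h1 : ‖Ψ (y', 0) + t₁ • v - c‖ ≤ rho1 - 2 * g0 := by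
      rw [← hfib]
      exact smallBall_dist hn ht₁
    have h2 := fiber_ball_large (p := Ψ (y', 0)) (v := v) (c := c) hv0 (ρ := rho1) (g := g0)
      (h := h0) h0_pos.le g0_pos.le (by linarith [g0_small, g0_pos]) h0_sq h1
    refine h2.trans (measure_mono ?_)
    intro t ht
    show Ψ (y', t) ∈ K
    rw [hfib]
    apply hb
    rw [mem_closedBall, dist_eq_norm]
    exact ht
  · intro y'
    have h1 := fiber_ball_small (p := Ψ (y', 0)) (v := v) (a := c + (rho1 - 3 * g0) • n) hv0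
      g0_pos.le
    have hsub : Prod.mk y' ⁻¹' (Ψ ⁻¹' smallBall c n)
        ⊆ {t : ℝ | Ψ (y', 0) + t • v ∈ closedBall (c + (rho1 - 3 * g0) • n) g0} := by
      intro t ht
      have : Ψ (y', t) ∈ smallBall c n := ht
      rw [hfib] at this
      exact this
    refine (measure_mono hsub).trans (h1.trans (ENNReal.ofReal_le_ofReal ?_))
    have : 2 * h0 / ‖v‖ / 2 = h0 / ‖v‖ := by field_simp
    rw [this]
    exact div_le_div_of_nonneg_right four_g_le hvn.le
  · have h1 := cond_ell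
    have h2 : 0 ≤ 4 * g0 := by linarith [g0_pos]
    have h3 : (β - α) * ‖v‖ * (4 * g0) ≤ D0 * (4 * g0) := mul_le_mul_of_nonneg_right hlen h2
    have e : 2 * h0 / ‖v‖ * eta = 2 * (h0 * eta) / ‖v‖ := by ring
    rw [e, le_div_iff₀ hvn]
    nlinarith

/-- The fibre volume bound. -/
theorem volume_le_fibre (μ : Measure X) {K : Set (X × ℝ)} (hc : IsCompact K) {D' : ℝ}
    (hD' : ∀ y, volume (Prod.mk y ⁻¹' K) ≤ ENNReal.ofReal D') :
    (μ.prod volume) K ≤ ENNReal.ofReal D' * μ (Prod.fst '' K) := by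
  have hPm : MeasurableSet (Prod.fst '' K) := (hc.image continuous_fst).measurableSet
  rw [Measure.prod_apply hc.measurableSet]
  calc ∫⁻ y, volume (Prod.mk y ⁻¹' K) ∂μ
      ≤ ∫⁻ y, (Prod.fst '' K).indicator (fun _ => ENNReal.ofReal D') y ∂μ := by
        refine lintegral_mono fun y => ?_
        by_cases hy : y ∈ Prod.fst '' K
        · rw [indicator_of_mem hy]
          exact hD' y
        · rw [indicator_of_notMem hy]
          have : Prod.mk y ⁻¹' K = ∅ := by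
            ext t
            simp only [mem_preimage, mem_empty_iff_false, iff_false]
            intro ht
            exact hy ⟨(y, t), ht, rfl⟩
          rw [this]
          simp
    _ = ENNReal.ofReal D' * μ (Prod.fst '' K) := lintegral_indicator_const hPm _

/-- Length of a fibre. -/
theorem fibre_volume_le (Ψ : (X × ℝ) ≃L[ℝ] M) {K : Set M} (hc : IsCompact K) (hv : Convex ℝ K)
    {c₀ : M} (hout : K ⊆ closedBall c₀ R0) (y : X) :
    volume (Prod.mk y ⁻¹' (Ψ ⁻¹' K)) ≤ ENNReal.ofReal (D0 / ‖Ψ (0, 1)‖) := by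
  have hK''c : IsCompact (Ψ ⁻¹' K) := Ψ.toHomeomorph.isCompact_preimage.2 hc
  have hK''v : Convex ℝ (Ψ ⁻¹' K) := hv.linear_preimage Ψ.toLinearEquiv.toLinearMap
  set v : M := Ψ (0, 1) with hvdef
  have hv0 : v ≠ 0 := Psi_v_ne Ψ
  have hvn : 0 < ‖v‖ := norm_pos_iff.2 hv0
  rcases (Prod.mk y ⁻¹' (Ψ ⁻¹' K)).eq_empty_or_nonempty with hemp | hne
  · rw [hemp]; simp
  have hcomp := fibre_compact hK''c y
  have hI := fibre_eq_Icc hK''c hK''v y hne
  set α := sInf (Prod.mk y ⁻¹' (Ψ ⁻¹' K)) with hαd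
  set β := sSup (Prod.mk y ⁻¹' (Ψ ⁻¹' K)) with hβd
  have hα : Ψ (y, α) ∈ K := hcomp.sInf_mem hne
  have hβ : Ψ (y, β) ∈ K := hcomp.sSup_mem hne
  rw [hI, Real.volume_Icc]
  apply ENNReal.ofReal_le_ofReal
  rw [le_div_iff₀ hvn]
  have hαβ : α ≤ β := csInf_le_csSup hne hcomp.bddBelow hcomp.bddAbove
  have h1 : dist (Ψ (y, β)) c₀ ≤ R0 := hout hβ
  have h2 : dist (Ψ (y, α)) c₀ ≤ R0 := hout hα
  have h3 := dist_triangle_right (Ψ (y, β)) (Ψ (y, α)) c₀
  rw [dist_eq_norm, Psi_line Ψ y β, Psi_line Ψ y α] at h3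
  have e : Ψ (y, 0) + β • Ψ (0, 1) - (Ψ (y, 0) + α • Ψ (0, 1)) = (β - α) • Ψ (0, 1) := by
    rw [sub_smul]; abel
  rw [e, norm_smul, Real.norm_eq_abs, abs_of_nonneg (by linarith)] at h3
  rw [← Psi_line, ← Psi_line] at h3
  have : D0 = 2 * R0 := by norm_num [D0, R0]
  rw [this]
  linarith

/-- Points of a chord close to a point near two support planes lie in the thin set. -/
theorem thin_fibre (Ψ : (X × ℝ) ≃L[ℝ] M) {K : Set M} {c n : Fin 3 → M} (hn : ∀ i, ‖n i‖ = 1)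
    {y : X} {z : ℝ} {i j : Fin 3} (hij : i ≠ j) (hi : ell (c i) (n i) (Ψ (y, z)) < eta)
    (hj : ell (c j) (n j) (Ψ (y, z)) < eta) {t : ℝ} (htK : Ψ (y, t) ∈ K)
    (ht : |t - z| * ‖Ψ (0, 1)‖ < eta) : Ψ (y, t) ∈ thinSet K c n := by
  refine ⟨htK, i, j, hij, ?_, ?_⟩
  · rw [Psi_line Ψ y t]
    rw [Psi_line Ψ y z] at hi
    have := ell_line (c i) (n i) (Ψ (y, 0)) (Ψ (0, 1)) t z (hn i)
    linarith
  · rw [Psi_line Ψ y t]
    rw [Psi_line Ψ y z] at hj
    have := ell_line (c j) (n j) (Ψ (y, 0)) (Ψ (0, 1)) t z (hn j)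
    linarith

/-- The pigeonhole: if no support plane is far from both ends, then one end is close to two planes. -/
theorem pigeonhole {a b : Fin 3 → ℝ} (h : ∀ i, a i < eta ∨ b i < eta) :
    (∃ i j, i ≠ j ∧ a i < eta ∧ a j < eta) ∨ (∃ i j, i ≠ j ∧ b i < eta ∧ b j < eta) := by
  rcases h 0 with h0 | h0 <;> rcases h 1 with h1 | h1 <;> rcases h 2 with h2 | h2
  · exact Or.inl ⟨0, 1, by decide, h0, h1⟩
  · exact Or.inl ⟨0, 1, by decide, h0, h1⟩
  · exact Or.inl ⟨0, 2, by decide, h0, h2⟩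
  · exact Or.inr ⟨1, 2, by decide, h1, h2⟩
  · exact Or.inl ⟨1, 2, by decide, h1, h2⟩
  · exact Or.inr ⟨0, 2, by decide, h0, h2⟩
  · exact Or.inr ⟨0, 1, by decide, h0, h1⟩
  · exact Or.inr ⟨0, 1, by decide, h0, h1⟩

/-- The final numerical inequality. -/
theorem fb_numeric {LA V Nm gain : ℝ} (hV : 0 ≤ V) (hNm : Nm ≤ theta * V)
    (hgain : LA ≤ 3 * V * (1 - xI)) (_hgain' : gain = 0) :
    LA ≤ 3 * (1 - xI / 2) * (V - aa * Nm) := by
  have h1 : V * (1 - aa * theta) ≤ V - aa * Nm := by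
    have := mul_le_mul_of_nonneg_left hNm aa_pos.le
    nlinarith
  have h2 := main_numeric
  have hx : 0 ≤ 1 - xI / 2 := by
    have : xI ≤ 1 := by norm_num [xI, g0, h0, eta, R0]
    linarith
  have h3 : 3 * (1 - xI / 2) * (V * (1 - aa * theta)) ≤ 3 * (1 - xI / 2) * (V - aa * Nm) :=
    mul_le_mul_of_nonneg_left h1 (by positivity)
  have h4 : V * (1 - xI) ≤ V * ((1 - xI / 2) * (1 - aa * theta)) :=
    mul_le_mul_of_nonneg_left h2 hV
  nlinarith

/-- The weighted fibre bound. -/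
theorem fb (hM : finrank ℝ M = 3) (hdim : finrank ℝ X = 2) (μ : Measure X) [μ.IsAddHaarMeasure]
    (Ψ : (X × ℝ) ≃L[ℝ] M) {K : Set M} (hc : IsCompact K) (hv : Convex ℝ K) {c₀ : M}
    (hin : closedBall c₀ rho0 ⊆ K) (hout : K ⊆ closedBall c₀ R0) {c n : Fin 3 → M}
    (hn : ∀ i, ‖n i‖ = 1) (hb : ∀ i, closedBall (c i) rho1 ⊆ K)
    (hs : ∀ i, ∀ w ∈ K, ⟪n i, w - c i⟫ ≤ rho1)
    (hsep : ∀ i j, i ≠ j → ∃ p q : M, ⟪n i, p⟫ = 1 ∧ ⟪n j, p⟫ = 0 ∧ ‖p‖ ≤ 1 / kappa ∧
        ⟪n i, q⟫ = 0 ∧ ⟪n j, q⟫ = 1 ∧ ‖q‖ ≤ 1 / kappa) (y : X) :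
    (∫⁻ t in Prod.mk y ⁻¹' (Ψ ⁻¹' K), wt (Ψ ⁻¹' thinSet K c n) (y, t))
        * μ (Prod.fst '' (Ψ ⁻¹' K))
      ≤ ENNReal.ofReal (3 * (1 - xI / 2))
        * ∫⁻ z in Ψ ⁻¹' K, wt (Ψ ⁻¹' thinSet K c n) z ∂(μ.prod volume) := by
  have hK''c : IsCompact (Ψ ⁻¹' K) := Ψ.toHomeomorph.isCompact_preimage.2 hc
  have hK''v : Convex ℝ (Ψ ⁻¹' K) := hv.linear_preimage Ψ.toLinearEquiv.toLinearMap
  have hKm : MeasurableSet K := hc.measurableSet
  have hK''m : MeasurableSet (Ψ ⁻¹' K) := hK''c.measurableSet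
  have hNm0 : MeasurableSet (thinSet K c n) := thinSet_measurable hc.isClosed c n
  have hNm : MeasurableSet (Ψ ⁻¹' thinSet K c n) := hNm0.preimage Ψ.continuous.measurable
  have hNK : thinSet K c n ⊆ K := inter_subset_left
  set ν : Measure M := Measure.map Ψ (μ.prod volume) with hνd
  haveI : ν.IsAddHaarMeasure := Ψ.isAddHaarMeasure_map _
  have hν : ∀ S, MeasurableSet S → (μ.prod volume) (Ψ ⁻¹' S) = ν S := fun S hS =>
    (Measure.map_apply Ψ.continuous.measurable hS).symm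
  have hνK : ν K ≠ ⊤ := hc.measure_lt_top.ne
  set V : ℝ := (ν K).toReal with hVd
  set Nm : ℝ := (ν (thinSet K c n)).toReal with hNmd
  have hV0 : 0 ≤ V := ENNReal.toReal_nonneg
  have hmass : ∫⁻ z in Ψ ⁻¹' K, wt (Ψ ⁻¹' thinSet K c n) z ∂(μ.prod volume)
      = ENNReal.ofReal (V - aa * Nm) := by
    rw [wt_lintegral _ hNm hK''m (by rw [hν K hKm]; exact hνK)]
    rw [hν K hKm]
    have : Ψ ⁻¹' K ∩ Ψ ⁻¹' thinSet K c n = Ψ ⁻¹' thinSet K c n :=
      inter_eq_right.2 (preimage_mono hNK)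
    rw [this, hν _ hNm0]
  rw [hmass, ← ENNReal.ofReal_mul (by
    have : xI ≤ 1 := by norm_num [xI, g0, h0, eta, R0]
    linarith)]
  rcases (Prod.mk y ⁻¹' (Ψ ⁻¹' K)).eq_empty_or_nonempty with hemp | hne
  · rw [hemp]; simp
  have hcomp := fibre_compact hK''c y
  have hI := fibre_eq_Icc hK''c hK''v y hne
  set α := sInf (Prod.mk y ⁻¹' (Ψ ⁻¹' K)) with hαd
  set β := sSup (Prod.mk y ⁻¹' (Ψ ⁻¹' K)) with hβd
  have hα : Ψ (y, α) ∈ K := hcomp.sInf_mem hne
  have hβ : Ψ (y, β) ∈ K := hcomp.sSup_mem hne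
  have hαβ' : α ≤ β := csInf_le_csSup hne hcomp.bddBelow hcomp.bddAbove
  -- the fibre integral
  have hwtfib : ∀ t, wt (Ψ ⁻¹' thinSet K c n) (y, t)
      = wt (Prod.mk y ⁻¹' (Ψ ⁻¹' thinSet K c n)) t := fun t => rfl
  simp only [hwtfib]
  have hSm : MeasurableSet (Prod.mk y ⁻¹' (Ψ ⁻¹' K)) := hcomp.measurableSet
  have hSfin : volume (Prod.mk y ⁻¹' (Ψ ⁻¹' K)) ≠ ⊤ := hcomp.measure_lt_top.ne
  have hNfm : MeasurableSet (Prod.mk y ⁻¹' (Ψ ⁻¹' thinSet K c n)) :=
    hNm.preimage (by fun_prop)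
  rw [wt_lintegral _ hNfm hSm hSfin]
  set pm : ℝ := (volume (Prod.mk y ⁻¹' (Ψ ⁻¹' K) ∩ Prod.mk y ⁻¹' (Ψ ⁻¹' thinSet K c n))).toReal
    with hpmd
  have hpm0 : 0 ≤ pm := ENNReal.toReal_nonneg
  have hvolS : (volume (Prod.mk y ⁻¹' (Ψ ⁻¹' K))).toReal = β - α := by
    rw [hI, Real.volume_Icc, ENNReal.toReal_ofReal (by linarith)]
  rw [hvolS]
  -- the projection
  have hPc : IsCompact (Prod.fst '' (Ψ ⁻¹' K)) := hK''c.image continuous_fst
  have hPfin : μ (Prod.fst '' (Ψ ⁻¹' K)) ≠ ⊤ := hPc.measure_lt_top.ne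
  set Ā : ℝ := (μ (Prod.fst '' (Ψ ⁻¹' K))).toReal with hĀd
  have hĀ0 : 0 ≤ Ā := ENNReal.toReal_nonneg
  have hPĀ : μ (Prod.fst '' (Ψ ⁻¹' K)) = ENNReal.ofReal Ā := (ENNReal.ofReal_toReal hPfin).symm
  rw [hPĀ, ← ENNReal.ofReal_mul' hĀ0]
  apply ENNReal.ofReal_le_ofReal
  rcases hαβ'.eq_or_lt with hαeq | hαβ
  · -- degenerate fibre
    have hpm_zero : pm = 0 := by
      have hle : volume (Prod.mk y ⁻¹' (Ψ ⁻¹' K) ∩ Prod.mk y ⁻¹' (Ψ ⁻¹' thinSet K c n))
          ≤ volume (Prod.mk y ⁻¹' (Ψ ⁻¹' K)) := measure_mono inter_subset_left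
      have h0 : volume (Prod.mk y ⁻¹' (Ψ ⁻¹' K)) = 0 := by
        rw [hI, Real.volume_Icc, ← hαeq]
        simp
      rw [h0] at hle
      have : volume (Prod.mk y ⁻¹' (Ψ ⁻¹' K) ∩ Prod.mk y ⁻¹' (Ψ ⁻¹' thinSet K c n)) = 0 :=
        nonpos_iff_eq_zero.1 hle
      rw [hpmd, this]
      simp
    rw [hpm_zero, ← hαeq]
    have hNmθ := thin_bound ν hM hc hin hout hs hsep
    apply fb_numeric hV0 hNmθ _ rfl
    have hx : xI ≤ 1 := by norm_num [xI, g0, h0, eta, R0]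
    simp only [sub_self, mul_zero, zero_mul]
    have : 0 ≤ 1 - xI := by linarith
    positivity
  -- main facts
  have hLpos : 0 < β - α := by linarith
  have hchord : (β - α) * Ā ≤ 3 * V := by
    have h1 := chord_bound hdim μ hK''c hK''v (y0 := y) (α := α) (β := β) hα hβ hαβ
    rw [hν K hKm, hPĀ, ← ENNReal.ofReal_mul hLpos.le] at h1
    have h2 := ENNReal.toReal_mono (ENNReal.mul_ne_top (by norm_num) hνK) h1
    rwa [ENNReal.toReal_ofReal (by positivity), ENNReal.toReal_mul, ENNReal.toReal_ofNat] at h2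
  set v : M := Ψ (0, 1) with hvdef
  have hv0 : v ≠ 0 := Psi_v_ne Ψ
  have hvn : 0 < ‖v‖ := norm_pos_iff.2 hv0
  have hD0 : 0 < D0 := by norm_num [D0]
  have hDV : V ≤ D0 / ‖v‖ * Ā := by
    have h1 := volume_le_fibre μ hK''c (D' := D0 / ‖v‖)
      (fun y' => fibre_volume_le Ψ hc hv hout y')
    rw [hν K hKm, hPĀ, ← ENNReal.ofReal_mul (by positivity)] at h1
    have h2 := ENNReal.toReal_mono ENNReal.ofReal_ne_top h1
    rwa [ENNReal.toReal_ofReal (by positivity)] at h2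
  have hNmθ := thin_bound ν hM hc hin hout hs hsep
  have haa := aa_pos
  apply fb_numeric hV0 hNmθ _ rfl
  by_cases hone : ∃ i, eta ≤ ell (c i) (n i) (Ψ (y, α)) ∧ eta ≤ ell (c i) (n i) (Ψ (y, β))
  · obtain ⟨i, h1, h2⟩ := hone
    have h3 := case_one hdim μ Ψ hc hv hout (hn i) (hb i) (hs i) hα hβ hαβ h1 h2
    have hGm : MeasurableSet (smallBall (c i) (n i)) := isClosed_closedBall.measurableSet
    rw [hν K hKm, hν _ hGm, hPĀ, ← ENNReal.ofReal_mul hLpos.le] at h3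
    have hGfin : ν (smallBall (c i) (n i)) ≠ ⊤ := measure_closedBall_lt_top.ne
    have h4 := ENNReal.toReal_mono (ENNReal.mul_ne_top (by norm_num) hνK) h3
    rw [ENNReal.toReal_add ENNReal.ofReal_ne_top (ENNReal.mul_ne_top (by norm_num) hGfin),
      ENNReal.toReal_ofReal (by positivity), ENNReal.toReal_mul, ENNReal.toReal_mul,
      ENNReal.toReal_ofNat] at h4
    have h5 := smallBall_bound ν hM hout (c i) (n i)
    have h6 : 0 ≤ aa * pm * Ā := by positivity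
    nlinarith
  · push Not at hone
    have hor : ∀ i, ell (c i) (n i) (Ψ (y, α)) < eta ∨ ell (c i) (n i) (Ψ (y, β)) < eta := by
      intro i
      by_cases h : eta ≤ ell (c i) (n i) (Ψ (y, α))
      · exact Or.inr (hone i h)
      · exact Or.inl (not_le.1 h)
    -- a point of the chord close to two planes
    obtain ⟨z, hz, i, j, hij, hi, hj⟩ : ∃ z : ℝ, (z = α ∨ z = β) ∧ ∃ i j : Fin 3, i ≠ j ∧
        ell (c i) (n i) (Ψ (y, z)) < eta ∧ ell (c j) (n j) (Ψ (y, z)) < eta := by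
      rcases pigeonhole hor with ⟨i, j, hij, h1, h2⟩ | ⟨i, j, hij, h1, h2⟩
      · exact ⟨α, Or.inl rfl, i, j, hij, h1, h2⟩
      · exact ⟨β, Or.inr rfl, i, j, hij, h1, h2⟩
    have hthin : ∀ t ∈ Icc α β, |t - z| * ‖v‖ < eta →
        t ∈ Prod.mk y ⁻¹' (Ψ ⁻¹' K) ∩ Prod.mk y ⁻¹' (Ψ ⁻¹' thinSet K c n) := by
      intro t ht htz
      have htK : Ψ (y, t) ∈ K := by
        have : t ∈ Prod.mk y ⁻¹' (Ψ ⁻¹' K) := by rw [hI]; exact ht
        exact this
      exact ⟨htK, thin_fibre Ψ hn hij hi hj htK htz⟩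
    have hinterfin : volume (Prod.mk y ⁻¹' (Ψ ⁻¹' K) ∩ Prod.mk y ⁻¹' (Ψ ⁻¹' thinSet K c n)) ≠ ⊤ :=
      ne_top_of_le_ne_top hSfin (measure_mono inter_subset_left)
    have hxx : aa * (eta / D0) = 3 * xI := aa_eta
    have heta3 := eta_le
    have hetapos := eta_pos
    by_cases hshort : (β - α) * ‖v‖ < eta
    · -- the whole chord is thin
      have hsub : Icc α β ⊆ Prod.mk y ⁻¹' (Ψ ⁻¹' K) ∩ Prod.mk y ⁻¹' (Ψ ⁻¹' thinSet K c n) := by
        intro t ht
        apply hthin t ht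
        have h1 : |t - z| ≤ β - α := by
          rw [abs_le]
          rcases hz with rfl | rfl <;> constructor <;> linarith [ht.1, ht.2]
        calc |t - z| * ‖v‖ ≤ (β - α) * ‖v‖ := mul_le_mul_of_nonneg_right h1 hvn.le
          _ < eta := hshort
      have hpmL : β - α ≤ pm := by
        have h1 := measure_mono (μ := volume) hsub
        rw [Real.volume_Icc] at h1
        exact (ENNReal.ofReal_le_iff_le_toReal hinterfin).1 h1
      have h2 : aa * (β - α) * Ā ≤ aa * pm * Ā := by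
        gcongr
      have h3 : aa * ((β - α) * Ā) ≤ aa * (3 * V) := mul_le_mul_of_nonneg_left hchord haa.le
      have h4 := aa_le
      have h5 : (β - α - aa * pm) * Ā ≤ (1 - aa) * (3 * V) := by
        have : (1 - aa) * ((β - α) * Ā) ≤ (1 - aa) * (3 * V) :=
          mul_le_mul_of_nonneg_left hchord (by linarith)
        nlinarith
      have h6 : aa * (eta / D0) * V ≤ aa * 3 * V := by
        have h7 : aa * (eta / D0) ≤ aa * 3 := mul_le_mul_of_nonneg_left heta3 haa.le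
        exact mul_le_mul_of_nonneg_right h7 hV0
      rw [hxx] at h6
      nlinarith
    · -- a portion of length `eta / |v|` is thin
      push Not at hshort
      have hlen : eta / ‖v‖ ≤ β - α := by
        rw [div_le_iff₀ hvn]; exact hshort
      have hpmL : eta / ‖v‖ ≤ pm := by
        rcases hz with hz | hz
        · have hsub : Ico α (α + eta / ‖v‖)
              ⊆ Prod.mk y ⁻¹' (Ψ ⁻¹' K) ∩ Prod.mk y ⁻¹' (Ψ ⁻¹' thinSet K c n) := by
            intro t ht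
            apply hthin t ⟨ht.1, by linarith [ht.2]⟩
            rw [hz, abs_of_nonneg (by linarith [ht.1])]
            have : t - α < eta / ‖v‖ := by linarith [ht.2]
            rwa [lt_div_iff₀ hvn] at this
          have h1 := measure_mono (μ := volume) hsub
          rw [Real.volume_Ico] at h1
          have h2 := (ENNReal.ofReal_le_iff_le_toReal hinterfin).1 h1
          have e : α + eta / ‖v‖ - α = eta / ‖v‖ := by ring
          rwa [e] at h2
        · have hsub : Ioc (β - eta / ‖v‖) β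
              ⊆ Prod.mk y ⁻¹' (Ψ ⁻¹' K) ∩ Prod.mk y ⁻¹' (Ψ ⁻¹' thinSet K c n) := by
            intro t ht
            apply hthin t ⟨by linarith [ht.1], ht.2⟩
            rw [hz, abs_of_nonpos (by linarith [ht.2])]
            have : β - t < eta / ‖v‖ := by linarith [ht.1]
            rw [lt_div_iff₀ hvn] at this
            linarith
          have h1 := measure_mono (μ := volume) hsub
          rw [Real.volume_Ioc] at h1
          have h2 := (ENNReal.ofReal_le_iff_le_toReal hinterfin).1 h1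
          have e : β - (β - eta / ‖v‖) = eta / ‖v‖ := by ring
          rwa [e] at h2
      have h2 : aa * (eta / ‖v‖) * Ā ≤ aa * pm * Ā := by
        gcongr
      have h3 : (eta / D0) * V ≤ (eta / ‖v‖) * Ā := by
        have h4 : (eta / D0) * V ≤ (eta / D0) * (D0 / ‖v‖ * Ā) :=
          mul_le_mul_of_nonneg_left hDV (by positivity)
        have h5 : (eta / D0) * (D0 / ‖v‖ * Ā) = (eta / ‖v‖) * Ā := by
          field_simp
        linarith
      have h6 : aa * ((eta / D0) * V) ≤ aa * ((eta / ‖v‖) * Ā) :=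
        mul_le_mul_of_nonneg_left h3 haa.le
      have h7 : aa * (eta / D0) * V = 3 * xI * V := by rw [hxx]
      nlinarith

end Vale.Agent.Lib.P243b
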