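import Vale.Agent.Lib.P243b.Constants

/-!
Normal position of a convex body: a linear image lies between two concentric balls of universal
radii. The proof takes a maximal determinant.
-/

open MeasureTheory Set Module Metric
open scoped ENNReal RealInnerProductSpace

noncomputable section

namespace Vale.Agent.Lib.P243b

/-- The model three-space. -/
abbrev M3 : Type := EuclideanSpace ℝ (Fin 3)

/-- The scalar triple product in coordinates. -/
def det3 (a b c : M3) : ℝ :=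
  a 0 * (b 1 * c 2 - b 2 * c 1) - a 1 * (b 0 * c 2 - b 2 * c 0) + a 2 * (b 0 * c 1 - b 1 * c 0)

theorem det3_continuous {α : Type*} [TopologicalSpace α] {f g h : α → M3} (hf : Continuous f)
    (hg : Continuous g) (hh : Continuous h) : Continuous fun x => det3 (f x) (g x) (h x) := by
  have hc : ∀ (k : α → M3) (_ : Continuous k) (i : Fin 3), Continuous fun x => k x i := by
    intro k hk i
    exact (PiLp.continuous_apply 2 (fun _ : Fin 3 => ℝ) i).comp hk
  unfold det3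
  have h0 := hc f hf
  have h1 := hc g hg
  have h2 := hc h hh
  exact (((h0 0).mul (((h1 1).mul (h2 2)).sub ((h1 2).mul (h2 1)))).sub
    ((h0 1).mul (((h1 0).mul (h2 2)).sub ((h1 2).mul (h2 0))))).add
    ((h0 2).mul (((h1 0).mul (h2 1)).sub ((h1 1).mul (h2 0))))

/-- The linear combination map. -/
def comb (v₁ v₂ v₃ : M3) : M3 →ₗ[ℝ] M3 where
  toFun y := y 0 • v₁ + y 1 • v₂ + y 2 • v₃
  map_add' := by
    intro x y
    simp only [PiLp.add_apply, add_smul]
    abel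
  map_smul' := by
    intro r x
    simp only [PiLp.smul_apply, smul_eq_mul, mul_smul, RingHom.id_apply, smul_add]

theorem comb_apply (v₁ v₂ v₃ y : M3) : comb v₁ v₂ v₃ y = y 0 • v₁ + y 1 • v₂ + y 2 • v₃ := rfl

theorem det3_comb_1 (v₁ v₂ v₃ y : M3) : det3 (comb v₁ v₂ v₃ y) v₂ v₃ = y 0 * det3 v₁ v₂ v₃ := by
  simp only [det3, comb_apply, PiLp.add_apply, PiLp.smul_apply, smul_eq_mul]
  ring

theorem det3_comb_2 (v₁ v₂ v₃ y : M3) : det3 v₁ (comb v₁ v₂ v₃ y) v₃ = y 1 * det3 v₁ v₂ v₃ := by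
  simp only [det3, comb_apply, PiLp.add_apply, PiLp.smul_apply, smul_eq_mul]
  ring

theorem det3_comb_3 (v₁ v₂ v₃ y : M3) : det3 v₁ v₂ (comb v₁ v₂ v₃ y) = y 2 * det3 v₁ v₂ v₃ := by
  simp only [det3, comb_apply, PiLp.add_apply, PiLp.smul_apply, smul_eq_mul]
  ring

theorem comb_injective {v₁ v₂ v₃ : M3} (h : det3 v₁ v₂ v₃ ≠ 0) :
    Function.Injective (comb v₁ v₂ v₃) := by
  rw [injective_iff_map_eq_zero]
  intro y hy
  have h1 := det3_comb_1 v₁ v₂ v₃ y
  have h2 := det3_comb_2 v₁ v₂ v₃ y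
  have h3 := det3_comb_3 v₁ v₂ v₃ y
  rw [hy] at h1 h2 h3
  have z1 : det3 0 v₂ v₃ = 0 := by simp [det3]
  have z2 : det3 v₁ 0 v₃ = 0 := by simp [det3]
  have z3 : det3 v₁ v₂ 0 = 0 := by simp [det3]
  rw [z1] at h1
  rw [z2] at h2
  rw [z3] at h3
  have y0 : y 0 = 0 := by
    rcases mul_eq_zero.1 h1.symm with h' | h'
    · exact h'
    · exact absurd h' h
  have y1 : y 1 = 0 := by
    rcases mul_eq_zero.1 h2.symm with h' | h'
    · exact h'
    · exact absurd h' h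
  have y2 : y 2 = 0 := by
    rcases mul_eq_zero.1 h3.symm with h' | h'
    · exact h'
    · exact absurd h' h
  ext i
  fin_cases i <;> simp [y0, y1, y2]

theorem norm_sq_M3 (a : M3) : ‖a‖ ^ 2 = a 0 ^ 2 + a 1 ^ 2 + a 2 ^ 2 := by
  rw [EuclideanSpace.norm_eq, Real.sq_sqrt (by positivity), Fin.sum_univ_three]
  simp

/-- A maximal determinant triple. -/
theorem exists_max_det {K : Set M3} (hc : IsCompact K) {x₀ : M3} (hx₀ : x₀ ∈ interior K) :
    ∃ x₁ ∈ K, ∃ x₂ ∈ K, ∃ x₃ ∈ K, det3 (x₁ - x₀) (x₂ - x₀) (x₃ - x₀) ≠ 0 ∧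
      ∀ a ∈ K, ∀ b ∈ K, ∀ d ∈ K,
        |det3 (a - x₀) (b - x₀) (d - x₀)| ≤ |det3 (x₁ - x₀) (x₂ - x₀) (x₃ - x₀)| := by
  obtain ⟨ε, hε, hball⟩ := Metric.isOpen_iff.1 isOpen_interior x₀ hx₀
  have hsub : ∀ j : Fin 3, x₀ + (ε / 2) • (EuclideanSpace.single j (1 : ℝ)) ∈ K := by
    intro j
    apply interior_subset
    apply hball
    rw [mem_ball, dist_eq_norm]
    have : x₀ + (ε / 2) • (EuclideanSpace.single j (1 : ℝ)) - x₀
        = (ε / 2) • (EuclideanSpace.single j (1 : ℝ)) := by abel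
    rw [this, norm_smul]
    simp only [EuclideanSpace.norm_single, norm_one, mul_one, Real.norm_eq_abs]
    rw [abs_of_pos (by positivity)]
    linarith
  have hne : (K ×ˢ K ×ˢ K).Nonempty :=
    ⟨(_, _, _), hsub 0, hsub 1, hsub 2⟩
  have hcomp : IsCompact (K ×ˢ K ×ˢ K) := hc.prod (hc.prod hc)
  have hcont : Continuous fun p : M3 × M3 × M3 =>
      |det3 (p.1 - x₀) (p.2.1 - x₀) (p.2.2 - x₀)| :=
    (det3_continuous (by fun_prop) (by fun_prop) (by fun_prop)).abs
  obtain ⟨⟨x₁, x₂, x₃⟩, ⟨h1, h2, h3⟩, hmax⟩ := hcomp.exists_isMaxOn hne hcont.continuousOn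
  refine ⟨x₁, h1, x₂, h2, x₃, h3, ?_, ?_⟩
  · intro h0
    have := hmax (a := (_, _, _)) (show (_, _, _) ∈ K ×ˢ K ×ˢ K from ⟨hsub 0, hsub 1, hsub 2⟩)
    simp only [mem_setOf_eq, h0, abs_zero] at this
    have e : det3 (x₀ + (ε / 2) • EuclideanSpace.single (0 : Fin 3) (1 : ℝ) - x₀)
        (x₀ + (ε / 2) • EuclideanSpace.single (1 : Fin 3) (1 : ℝ) - x₀)
        (x₀ + (ε / 2) • EuclideanSpace.single (2 : Fin 3) (1 : ℝ) - x₀) = (ε / 2) ^ 3 := by
      simp only [add_sub_cancel_left]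
      simp [det3]
      ring
    rw [e] at this
    have h5 : 0 < (ε / 2) ^ 3 := by positivity
    rw [abs_of_pos h5] at this
    linarith
  · intro a ha b hb d hd
    exact hmax (a := (a, b, d)) ⟨ha, hb, hd⟩

/-- Every convex body in a three-dimensional space has a linear image in normal position. -/
theorem exists_normal_form {E : Type*} [NormedAddCommGroup E] [NormedSpace ℝ E]
    [FiniteDimensional ℝ E] (hE : finrank ℝ E = 3) {K : Set E} (hKc : IsCompact K)
    (hKv : Convex ℝ K) (hKi : (interior K).Nonempty) :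
    ∃ (A : E ≃L[ℝ] M3) (c₀ : M3), closedBall c₀ rho0 ⊆ A '' K ∧ A '' K ⊆ closedBall c₀ R0 := by
  have hf : finrank ℝ E = finrank ℝ M3 := by
    rw [hE]; simp
  let e : E ≃L[ℝ] M3 := ContinuousLinearEquiv.ofFinrankEq hf
  set K₁ : Set M3 := e '' K with hK₁
  have hK₁c : IsCompact K₁ := hKc.image e.continuous
  have hK₁v : Convex ℝ K₁ := hKv.linear_image e.toLinearEquiv.toLinearMap
  have hK₁i : (interior K₁).Nonempty := by
    have h' : e '' interior K = interior (e '' K) := e.toHomeomorph.image_interior K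
    rw [hK₁, ← h']
    exact hKi.image _
  obtain ⟨x₀, hx₀⟩ := hK₁i
  have hx₀K : x₀ ∈ K₁ := interior_subset hx₀
  obtain ⟨x₁, h1, x₂, h2, x₃, h3, hD, hmax⟩ := exists_max_det hK₁c hx₀
  set v₁ := x₁ - x₀ with hv₁
  set v₂ := x₂ - x₀ with hv₂
  set v₃ := x₃ - x₀ with hv₃
  let Tl : M3 ≃ₗ[ℝ] M3 := LinearEquiv.ofInjectiveEndo (comb v₁ v₂ v₃) (comb_injective hD)
  have hTl : ∀ y, Tl y = comb v₁ v₂ v₃ y := fun y => rfl
  let T : M3 ≃L[ℝ] M3 := Tl.symm.toContinuousLinearEquiv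
  have hT : ∀ w, comb v₁ v₂ v₃ (T w) = w := by
    intro w
    rw [← hTl]
    exact Tl.apply_symm_apply w
  have hTc : ∀ y, T (comb v₁ v₂ v₃ y) = y := by
    intro y
    rw [← hTl]
    exact Tl.symm_apply_apply y
  refine ⟨e.trans T, T x₀ + (EuclideanSpace.equiv (Fin 3) ℝ).symm (fun _ => 1 / 5), ?_, ?_⟩
  · -- the inner ball
    intro z hz
    set y : M3 := z - T x₀ with hy
    have hzd : ‖y - (EuclideanSpace.equiv (Fin 3) ℝ).symm (fun _ => 1 / 5)‖ ≤ rho0 := by
      have : dist z (T x₀ + (EuclideanSpace.equiv (Fin 3) ℝ).symm (fun _ => 1 / 5)) ≤ rho0 := hz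
      rw [dist_eq_norm] at this
      rw [hy, sub_sub]
      exact this
    have hsq := norm_sq_M3 (y - (EuclideanSpace.equiv (Fin 3) ℝ).symm (fun _ => 1 / 5))
    have hle : ‖y - (EuclideanSpace.equiv (Fin 3) ℝ).symm (fun _ => 1 / 5)‖ ^ 2 ≤ (1 / 5) ^ 2 := by
      apply pow_le_pow_left₀ (norm_nonneg _)
      simpa [rho0] using hzd
    rw [hsq] at hle
    simp only [PiLp.sub_apply] at hle
    have hcoord : ∀ i : Fin 3, ((EuclideanSpace.equiv (Fin 3) ℝ).symm (fun _ => (1 : ℝ) / 5) : M3) i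
        = 1 / 5 := fun i => rfl
    rw [hcoord, hcoord, hcoord] at hle
    have y0 : 0 ≤ y 0 := by nlinarith [sq_nonneg (y 1 - 1 / 5), sq_nonneg (y 2 - 1 / 5)]
    have y1 : 0 ≤ y 1 := by nlinarith [sq_nonneg (y 0 - 1 / 5), sq_nonneg (y 2 - 1 / 5)]
    have y2 : 0 ≤ y 2 := by nlinarith [sq_nonneg (y 0 - 1 / 5), sq_nonneg (y 1 - 1 / 5)]
    have ysum : y 0 + y 1 + y 2 ≤ 1 := by
      nlinarith [sq_nonneg (y 0 - y 1), sq_nonneg (y 0 - y 2), sq_nonneg (y 1 - y 2)]
    -- the point of the body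
    have hxK : (1 - (y 0 + y 1 + y 2)) • x₀ + (y 0 • x₁ + y 1 • x₂ + y 2 • x₃) ∈ K₁ := by
      have := hK₁v.sum_mem (t := Finset.univ) (w := ![1 - (y 0 + y 1 + y 2), y 0, y 1, y 2])
        (z := ![x₀, x₁, x₂, x₃]) (by
          intro i _
          fin_cases i <;> simp <;> linarith)
        (by simp [Fin.sum_univ_four]; ring)
        (by
          intro i _
          fin_cases i <;> simp [hx₀K, h1, h2, h3])
      simp only [Fin.sum_univ_four] at this
      simp at this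
      convert this using 1
      abel
    have hxe : (1 - (y 0 + y 1 + y 2)) • x₀ + (y 0 • x₁ + y 1 • x₂ + y 2 • x₃)
        = x₀ + comb v₁ v₂ v₃ y := by
      rw [comb_apply, hv₁, hv₂, hv₃]
      simp only [smul_sub, sub_smul, one_smul, add_smul]
      abel
    rw [hxe] at hxK
    obtain ⟨w, hw, hwe⟩ := hxK
    refine ⟨w, hw, ?_⟩
    show T (e w) = z
    rw [hwe, map_add, hTc, hy]
    abel
  · -- the outer ball
    rintro _ ⟨w, hw, rfl⟩
    have hx : e w ∈ K₁ := ⟨w, hw, rfl⟩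
    show T (e w) ∈ _
    set y : M3 := T (e w - x₀) with hy
    have hcomb : comb v₁ v₂ v₃ y = e w - x₀ := hT _
    have hDpos : 0 < |det3 v₁ v₂ v₃| := abs_pos.2 hD
    have b0 : |y 0| ≤ 1 := by
      have h5 := hmax _ hx _ h2 _ h3
      rw [← hcomb, det3_comb_1, abs_mul] at h5
      by_contra hcon
      push Not at hcon
      nlinarith
    have b1 : |y 1| ≤ 1 := by
      have h5 := hmax _ h1 _ hx _ h3
      rw [← hcomb, det3_comb_2, abs_mul] at h5
      by_contra hcon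
      push Not at hcon
      nlinarith
    have b2 : |y 2| ≤ 1 := by
      have h5 := hmax _ h1 _ h2 _ hx
      rw [← hcomb, det3_comb_3, abs_mul] at h5
      by_contra hcon
      push Not at hcon
      nlinarith
    rw [mem_closedBall, dist_eq_norm]
    have e1 : T (e w) - (T x₀ + (EuclideanSpace.equiv (Fin 3) ℝ).symm (fun _ => 1 / 5))
        = y - (EuclideanSpace.equiv (Fin 3) ℝ).symm (fun _ => 1 / 5) := by
      rw [hy, map_sub]
      abel
    rw [e1]
    have hsq := norm_sq_M3 (y - (EuclideanSpace.equiv (Fin 3) ℝ).symm (fun _ => 1 / 5))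
    simp only [PiLp.sub_apply] at hsq
    have hcoord : ∀ i : Fin 3, ((EuclideanSpace.equiv (Fin 3) ℝ).symm (fun _ => (1 : ℝ) / 5) : M3) i
        = 1 / 5 := fun i => rfl
    rw [hcoord, hcoord, hcoord] at hsq
    have hR : (0 : ℝ) ≤ R0 := R0_pos.le
    apply (abs_le_of_sq_le_sq' _ hR).2
    rw [hsq]
    have c0 := abs_le.1 b0
    have c1 := abs_le.1 b1
    have c2 := abs_le.1 b2
    have hR2 : R0 ^ 2 = (21 / 10) ^ 2 := by norm_num [R0]
    rw [hR2]
    nlinarith [c0.1, c0.2, c1.1, c1.2, c2.1, c2.2]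

end Vale.Agent.Lib.P243b
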