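import Vale.Agent.Lib.P243b.FB
import Vale.Agent.Lib.P243b.NF

/-!
Assembly: every finite cylinder cover of a convex body has relative area above one third.
-/

open MeasureTheory Set Module Metric Topology
open scoped ENNReal Pointwise RealInnerProductSpace

noncomputable section

namespace Vale.Agent.Lib.P243b

variable {E : Type*} [NormedAddCommGroup E] [InnerProductSpace ℝ E] [FiniteDimensional ℝ E]
  [MeasurableSpace E] [BorelSpace E]

/-- A unit vector splits three-space isometrically as its orthogonal complement times the line. -/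
theorem exists_decomposition (u : E) (hu : ‖u‖ = 1) :
    ∃ Φ : E ≃L[ℝ] ((Submodule.span ℝ {u})ᗮ × ℝ),
      MeasurePreserving Φ volume volume ∧
      ∀ z, (Φ z).1 = (Submodule.span ℝ {u})ᗮ.orthogonalProjectionOnto z := by
  set s : Submodule ℝ E := Submodule.span ℝ {u} with hs
  let A : E ≃ₗᵢ[ℝ] WithLp 2 (s × sᗮ) := s.orthogonalDecomposition
  let C : s ≃ₗᵢ[ℝ] ℝ := (LinearIsometryEquiv.toSpanUnitSingleton (𝕜 := ℝ) u hu).symm
  let Φ : E ≃L[ℝ] (sᗮ × ℝ) :=
    (A.toContinuousLinearEquiv.trans (WithLp.prodContinuousLinearEquiv 2 ℝ s sᗮ)).trans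
      ((ContinuousLinearEquiv.prodComm ℝ s sᗮ).trans
        ((ContinuousLinearEquiv.refl ℝ sᗮ).prodCongr C.toContinuousLinearEquiv))
  refine ⟨Φ, ?_, ?_⟩
  · have h1 : MeasurePreserving A volume volume := A.measurePreserving
    have h2 : MeasurePreserving (WithLp.ofLp : WithLp 2 (s × sᗮ) → s × sᗮ) volume volume :=
      WithLp.volume_preserving_ofLp _ _
    have h3 : MeasurePreserving (Prod.swap : s × sᗮ → sᗮ × s) volume volume := by
      simpa [Measure.volume_eq_prod] using Measure.measurePreserving_swap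
    have h4 : MeasurePreserving (Prod.map id C : sᗮ × s → sᗮ × ℝ) volume volume := by
      simp only [Measure.volume_eq_prod]
      exact (MeasurePreserving.id _).prod C.measurePreserving
    exact h4.comp (h3.comp (h2.comp h1))
  · intro z
    simp [Φ, A]
    rfl

/-- The cylinder estimate in one direction, for a general splitting. -/
theorem cylinder_core {X : Type*} [NormedAddCommGroup X] [NormedSpace ℝ X] [MeasurableSpace X]
    [BorelSpace X] [FiniteDimensional ℝ X] (hdim : finrank ℝ X = 2) (μ : Measure X)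
    [μ.IsAddHaarMeasure] [SFinite μ] {K : Set E} (hKc : IsCompact K) (hKv : Convex ℝ K)
    (A : E ≃L[ℝ] M3) {c₀ : M3} (hin : closedBall c₀ rho0 ⊆ A '' K)
    (hout : A '' K ⊆ closedBall c₀ R0) {c n : Fin 3 → M3}
    (hn : ∀ i, ‖n i‖ = 1) (hb : ∀ i, closedBall (c i) rho1 ⊆ A '' K)
    (hs : ∀ i, ∀ w ∈ A '' K, ⟪n i, w - c i⟫ ≤ rho1)
    (hsep : ∀ i j, i ≠ j → ∃ p q : M3, ⟪n i, p⟫ = 1 ∧ ⟪n j, p⟫ = 0 ∧ ‖p‖ ≤ 1 / kappa ∧
        ⟪n i, q⟫ = 0 ∧ ⟪n j, q⟫ = 1 ∧ ‖q‖ ≤ 1 / kappa)
    (Φ : E ≃L[ℝ] (X × ℝ)) (hΦm : MeasurePreserving Φ volume (μ.prod volume))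
    {B : Set X} (hB : MeasurableSet B) :
    (∫⁻ z in K ∩ {z | (Φ z).1 ∈ B}, wt (thinSet (A '' K) c n) (A z))
      * μ ((fun z => (Φ z).1) '' K)
      ≤ ENNReal.ofReal (3 * (1 - xI / 2)) * (∫⁻ z in K, wt (thinSet (A '' K) c n) (A z))
        * μ B := by
  have hM : finrank ℝ M3 = 3 := by simp
  let Ψ : (X × ℝ) ≃L[ℝ] M3 := Φ.symm.trans A
  have hΨ : ∀ z, Ψ (Φ z) = A z := fun z => by
    show A (Φ.symm (Φ z)) = A z
    simp
  set K' : Set M3 := A '' K with hK'
  have hK'c : IsCompact K' := hKc.image A.continuous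
  have hK'v : Convex ℝ K' := hKv.linear_image A.toLinearEquiv.toLinearMap
  set N : Set M3 := thinSet K' c n with hN
  have hNm0 : MeasurableSet N := thinSet_measurable hK'c.isClosed c n
  set K'' : Set (X × ℝ) := Ψ ⁻¹' K' with hK''
  have hpre : Φ ⁻¹' K'' = K := by
    ext z
    simp only [hK'', mem_preimage, hΨ, hK']
    exact A.injective.mem_set_image
  have hK''m : MeasurableSet K'' := hK'c.measurableSet.preimage Ψ.continuous.measurable
  set N'' : Set (X × ℝ) := Ψ ⁻¹' N with hN''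
  have hN''m : MeasurableSet N'' := hNm0.preimage Ψ.continuous.measurable
  have hFm : Measurable (wt N'') := wt_measurable hN''m
  -- the fibre bound
  have hfb := fb hM hdim μ Ψ hK'c hK'v hin hout hn hb hs hsep
  have hKB : MeasurableSet (K'' ∩ Prod.fst ⁻¹' B) := hK''m.inter (measurable_fst hB)
  have hsplit : ∫⁻ z in K'' ∩ Prod.fst ⁻¹' B, wt N'' z ∂(μ.prod volume)
      = ∫⁻ y in B, (∫⁻ t in Prod.mk y ⁻¹' K'', wt N'' (y, t)) ∂μ := by
    rw [← lintegral_indicator hKB, lintegral_prod _ (hFm.indicator hKB).aemeasurable,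
      ← lintegral_indicator hB]
    refine lintegral_congr fun y => ?_
    by_cases hy : y ∈ B
    · rw [indicator_of_mem hy, ← lintegral_indicator (hK''m.preimage (by fun_prop))]
      refine lintegral_congr fun t => ?_
      by_cases ht : (y, t) ∈ K''
      · rw [indicator_of_mem (show (y, t) ∈ K'' ∩ Prod.fst ⁻¹' B from ⟨ht, hy⟩),
          indicator_of_mem (show t ∈ Prod.mk y ⁻¹' K'' from ht)]
      · rw [indicator_of_notMem (fun h => ht h.1),
          indicator_of_notMem (show t ∉ Prod.mk y ⁻¹' K'' from ht)]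
    · rw [indicator_of_notMem hy]
      have h0' : ∀ t : ℝ, (K'' ∩ Prod.fst ⁻¹' B).indicator (wt N'') (y, t) = 0 := fun t =>
        indicator_of_notMem (fun h => hy h.2) _
      simp only [h0', lintegral_zero]
  have hPfin : μ (Prod.fst '' K'') ≠ ⊤ :=
    ((Ψ.toHomeomorph.isCompact_preimage.2 hK'c).image continuous_fst).measure_lt_top.ne
  have hintB : (∫⁻ z in K'' ∩ Prod.fst ⁻¹' B, wt N'' z ∂(μ.prod volume))
        * μ (Prod.fst '' K'')
      ≤ ENNReal.ofReal (3 * (1 - xI / 2))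
        * (∫⁻ z in K'', wt N'' z ∂(μ.prod volume)) * μ B := by
    rw [hsplit, ← lintegral_mul_const' _ _ hPfin]
    calc ∫⁻ y in B, (∫⁻ t in Prod.mk y ⁻¹' K'', wt N'' (y, t)) * μ (Prod.fst '' K'') ∂μ
        ≤ ∫⁻ _ in B, ENNReal.ofReal (3 * (1 - xI / 2))
            * (∫⁻ z in K'', wt N'' z ∂(μ.prod volume)) ∂μ :=
          lintegral_mono fun y => hfb y
      _ = _ := by rw [setLIntegral_const]
  -- transport back to the original space
  have himg : Prod.fst '' K'' = (fun z => (Φ z).1) '' K := by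
    ext y
    constructor
    · rintro ⟨w, hw, rfl⟩
      refine ⟨Φ.symm w, ?_, by simp⟩
      rw [← hpre]
      simpa using hw
    · rintro ⟨z, hz, rfl⟩
      refine ⟨Φ z, ?_, rfl⟩
      rw [← hpre] at hz
      exact hz
  have htransport : ∀ S : Set (X × ℝ), MeasurableSet S →
      ∫⁻ w in S, wt N'' w ∂(μ.prod volume) = ∫⁻ z in Φ ⁻¹' S, wt N (A z) := by
    intro S _
    rw [← hΦm.setLIntegral_comp_preimage_emb Φ.toHomeomorph.measurableEmbedding]
    refine lintegral_congr fun z => ?_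
    show wt N (Ψ (Φ z)) = wt N (A z)
    rw [hΨ]
  have hpre2 : Φ ⁻¹' (K'' ∩ Prod.fst ⁻¹' B) = K ∩ {z | (Φ z).1 ∈ B} := by
    rw [preimage_inter, hpre]
    rfl
  rw [htransport _ hKB, htransport _ hK''m, himg, hpre2, hpre] at hintB
  exact hintB

/-- The cylinder estimate in one direction. -/
theorem cylinder_bound (hE : finrank ℝ E = 3) {K : Set E} (hKc : IsCompact K) (hKv : Convex ℝ K)
    (A : E ≃L[ℝ] M3) {c₀ : M3} (hin : closedBall c₀ rho0 ⊆ A '' K)
    (hout : A '' K ⊆ closedBall c₀ R0) {c n : Fin 3 → M3}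
    (hn : ∀ i, ‖n i‖ = 1) (hb : ∀ i, closedBall (c i) rho1 ⊆ A '' K)
    (hs : ∀ i, ∀ w ∈ A '' K, ⟪n i, w - c i⟫ ≤ rho1)
    (hsep : ∀ i j, i ≠ j → ∃ p q : M3, ⟪n i, p⟫ = 1 ∧ ⟪n j, p⟫ = 0 ∧ ‖p‖ ≤ 1 / kappa ∧
        ⟪n i, q⟫ = 0 ∧ ⟪n j, q⟫ = 1 ∧ ‖q‖ ≤ 1 / kappa)
    (u : E) (hu : ‖u‖ = 1) {B : Set (Submodule.span ℝ {u})ᗮ} (hB : MeasurableSet B) :
    (∫⁻ z in K ∩ {z | (Submodule.span ℝ {u})ᗮ.orthogonalProjectionOnto z ∈ B},
        wt (thinSet (A '' K) c n) (A z))
      * volume ((Submodule.span ℝ {u})ᗮ.orthogonalProjectionOnto '' K)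
      ≤ ENNReal.ofReal (3 * (1 - xI / 2)) * (∫⁻ z in K, wt (thinSet (A '' K) c n) (A z))
        * volume B := by
  obtain ⟨Φ, hΦm, hΦ⟩ := exists_decomposition u hu
  have hf3 : Fact (finrank ℝ E = 2 + 1) := ⟨hE⟩
  have hdim : finrank ℝ (Submodule.span ℝ {u})ᗮ = 2 :=
    Submodule.finrank_orthogonal_span_singleton (by
      intro h
      rw [h] at hu
      simp at hu)
  rw [Measure.volume_eq_prod] at hΦm
  have := cylinder_core hdim volume hKc hKv A hin hout hn hb hs hsep Φ hΦm hB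
  have e1 : (fun z => (Φ z).1) = ((Submodule.span ℝ {u})ᗮ.orthogonalProjectionOnto : E → _) :=
    funext hΦ
  have e2 : {z | (Φ z).1 ∈ B} = {z | (Submodule.span ℝ {u})ᗮ.orthogonalProjectionOnto z ∈ B} := by
    ext z
    simp [hΦ]
  rw [e1, e2] at this
  exact this

/-- The main inequality. -/
theorem main_bound (hE : finrank ℝ E = 3) {K : Set E} (hKc : IsCompact K) (hKv : Convex ℝ K)
    (hKi : (interior K).Nonempty)
    {m : ℕ} (u : Fin m → E) (hu : ∀ i, ‖u i‖ = 1)
    (B : ∀ i, Set (Submodule.span ℝ {u i})ᗮ) (hB : ∀ i, MeasurableSet (B i))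
    (hcov : K ⊆ ⋃ i, {z | (Submodule.span ℝ {u i})ᗮ.orthogonalProjectionOnto z ∈ B i}) :
    ENNReal.ofReal (1 / 3 + 1 / 10 ^ 66) ≤ ∑ i, volume (B i)
      / volume ((Submodule.span ℝ {u i})ᗮ.orthogonalProjectionOnto '' K) := by
  obtain ⟨A, c₀, hin, hout⟩ := exists_normal_form hE hKc hKv hKi
  have hM : finrank ℝ M3 = 3 := by simp
  have hK'c : IsCompact (A '' K) := hKc.image A.continuous
  have hK'v : Convex ℝ (A '' K) := hKv.linear_image A.toLinearEquiv.toLinearMap
  obtain ⟨c, n, hn, hb, hs, hsep⟩ := exists_three hM hK'c hK'v rho1_pos rho1_lt hin hout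
    kappa_pos kappa_le
  have hVfin : volume K ≠ ⊤ := hKc.measure_lt_top.ne
  have hVpos : volume K ≠ 0 := by
    intro h
    obtain ⟨x, hx⟩ := hKi
    have h1 : 0 < volume (interior K) := isOpen_interior.measure_pos volume ⟨x, hx⟩
    have h2 : volume (interior K) ≤ volume K := measure_mono interior_subset
    rw [h] at h2
    exact absurd (lt_of_lt_of_le h1 h2) (lt_irrefl _)
  set N : Set M3 := thinSet (A '' K) c n with hN
  have hNm : MeasurableSet N := thinSet_measurable hK'c.isClosed c n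
  set F : E → ℝ≥0∞ := fun z => wt N (A z) with hF
  have hFm : Measurable F := (wt_measurable hNm).comp A.continuous.measurable
  set C : ℝ≥0∞ := ENNReal.ofReal (3 * (1 - xI / 2)) with hC
  -- each piece
  have hpiece : ∀ i, ∫⁻ z in K ∩ {z | (Submodule.span ℝ {u i})ᗮ.orthogonalProjectionOnto z ∈ B i},
      F z ≤ C * (∫⁻ z in K, F z) * (volume (B i)
        / volume ((Submodule.span ℝ {u i})ᗮ.orthogonalProjectionOnto '' K)) := by
    intro i
    have hb' := cylinder_bound hE hKc hKv A hin hout hn hb hs hsep (u i) (hu i) (hB i)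
    set P := (Submodule.span ℝ {u i})ᗮ.orthogonalProjectionOnto '' K with hP
    have hPc : IsCompact P := hKc.image (ContinuousLinearMap.continuous _)
    have hPfin : volume P ≠ ⊤ := hPc.measure_lt_top.ne
    by_cases hP0 : volume P = 0
    · -- then the body would be null
      exfalso
      obtain ⟨Φ, hΦm, hΦ⟩ := exists_decomposition (u i) (hu i)
      apply hVpos
      have hsub : K ⊆ Φ ⁻¹' (Prod.fst ⁻¹' P) := by
        intro z hz
        show (Φ z).1 ∈ P
        rw [hΦ]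
        exact ⟨z, hz, rfl⟩
      have hmeas : MeasurableSet (Prod.fst ⁻¹' P : Set ((Submodule.span ℝ {u i})ᗮ × ℝ)) :=
        measurable_fst hPc.measurableSet
      have h1 : volume (Φ ⁻¹' (Prod.fst ⁻¹' P)) = 0 := by
        rw [hΦm.measure_preimage hmeas.nullMeasurableSet, Measure.volume_eq_prod,
          ← Set.prod_univ, Measure.prod_prod, hP0, zero_mul]
      exact measure_mono_null hsub h1
    · rw [← mul_div_assoc]
      exact (ENNReal.le_div_iff_mul_le (Or.inl hP0) (Or.inl hPfin)).2 hb'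
  have hFcov : ∫⁻ z in K, F z ≤ ∑ i,
      ∫⁻ z in K ∩ {z | (Submodule.span ℝ {u i})ᗮ.orthogonalProjectionOnto z ∈ B i}, F z := by
    have hsub : K ⊆ ⋃ i, K ∩ {z | (Submodule.span ℝ {u i})ᗮ.orthogonalProjectionOnto z ∈ B i} := by
      intro z hz
      obtain ⟨i, hi⟩ := mem_iUnion.1 (hcov hz)
      exact mem_iUnion.2 ⟨i, hz, hi⟩
    refine (lintegral_mono_set hsub).trans ?_
    refine (lintegral_iUnion_le _ _).trans ?_
    rw [tsum_fintype]
  set S : ℝ≥0∞ := ∑ i, volume (B i)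
      / volume ((Submodule.span ℝ {u i})ᗮ.orthogonalProjectionOnto '' K) with hS
  set T : ℝ≥0∞ := ∫⁻ z in K, F z with hT
  -- the total weight is positive and finite
  have hF1 : ∀ z, F z ≤ 1 := by
    intro z
    simp only [hF, wt]
    split_ifs
    · rw [← ENNReal.ofReal_one]
      apply ENNReal.ofReal_le_ofReal
      linarith [aa_pos]
    · exact le_rfl
  have hF0 : ∀ z, ENNReal.ofReal (1 - aa) ≤ F z := by
    intro z
    simp only [hF, wt]
    split_ifs
    · exact le_rfl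
    · rw [← ENNReal.ofReal_one]
      apply ENNReal.ofReal_le_ofReal
      linarith [aa_pos]
  have hTfin : T ≠ ⊤ := by
    apply ne_top_of_le_ne_top hVfin
    calc T ≤ ∫⁻ _ in K, 1 := lintegral_mono hF1
      _ = volume K := by simp
  have h1a : 0 < 1 - aa := by
    have : aa < 1 := by norm_num [aa, xI, g0, h0, eta, R0, D0]
    linarith
  have hTpos : T ≠ 0 := by
    have h1 : ENNReal.ofReal (1 - aa) * volume K ≤ T := by
      calc ENNReal.ofReal (1 - aa) * volume K = ∫⁻ _ in K, ENNReal.ofReal (1 - aa) := by simp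
        _ ≤ T := lintegral_mono hF0
    intro h
    rw [h] at h1
    have h2 : ENNReal.ofReal (1 - aa) * volume K ≠ 0 :=
      mul_ne_zero (by simpa using h1a) hVpos
    exact h2 (nonpos_iff_eq_zero.1 h1)
  have hchain : 1 * T ≤ (C * S) * T := by
    calc 1 * T = T := one_mul _
      _ ≤ ∑ i, ∫⁻ z in K ∩ {z | (Submodule.span ℝ {u i})ᗮ.orthogonalProjectionOnto z ∈ B i}, F z :=
          hFcov
      _ ≤ ∑ i, C * T * (volume (B i)
          / volume ((Submodule.span ℝ {u i})ᗮ.orthogonalProjectionOnto '' K)) :=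
          Finset.sum_le_sum fun i _ => hpiece i
      _ = C * T * S := by rw [hS, Finset.mul_sum]
      _ = (C * S) * T := by ring
  have hcancel : 1 ≤ C * S := (ENNReal.mul_le_mul_iff_left hTpos hTfin).1 hchain
  have hCpos : 0 < 3 * (1 - xI / 2) := by
    have : xI ≤ 1 := by norm_num [xI, g0, h0, eta, R0]
    linarith
  have hCne : C ≠ 0 := by
    rw [hC]
    simpa using hCpos
  have hCt : C ≠ ⊤ := ENNReal.ofReal_ne_top
  -- conclude
  have hfin := final_numeric
  have h3 : ENNReal.ofReal (1 / 3 + 1 / 10 ^ 66) ≤ ENNReal.ofReal (1 / (3 * (1 - xI / 2))) :=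
    ENNReal.ofReal_le_ofReal hfin
  refine h3.trans ?_
  have h4 : C * ENNReal.ofReal (1 / (3 * (1 - xI / 2))) = 1 := by
    rw [hC, ← ENNReal.ofReal_mul hCpos.le]
    rw [mul_one_div_cancel hCpos.ne']
    simp
  have h5 : C * ENNReal.ofReal (1 / (3 * (1 - xI / 2))) ≤ C * S := by
    rw [h4]
    exact hcancel
  exact (ENNReal.mul_le_mul_iff_right hCne hCt).1 h5

end Vale.Agent.Lib.P243b
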