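import Vale.Agent.Lib.P243b.Body
import Vale.Agent.Lib.P243b.Constants

/-!
The thin set and the small balls, with their relative volumes.
-/

open MeasureTheory Set Module Metric
open scoped ENNReal RealInnerProductSpace

noncomputable section

namespace Vale.Agent.Lib.P243b

variable {M : Type*} [NormedAddCommGroup M] [InnerProductSpace ℝ M] [FiniteDimensional ℝ M]

/-- The distance to a support plane. -/
def ell (c n w : M) : ℝ := rho1 - ⟪n, w - c⟫

/-- The thin set: points close to two of the three support planes. -/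
def thinSet (K : Set M) (c n : Fin 3 → M) : Set M :=
  K ∩ {w | ∃ i j, i ≠ j ∧ ell (c i) (n i) w < 2 * eta ∧ ell (c j) (n j) w < 2 * eta}

/-- The small ball near the point of tangency. -/
def smallBall (c n : M) : Set M := closedBall (c + (rho1 - 3 * g0) • n) g0

theorem ell_continuous (c n : M) : Continuous (ell c n) := by
  unfold ell
  fun_prop

theorem smallBall_subset {c n : M} (hn : ‖n‖ = 1) : smallBall c n ⊆ closedBall c rho1 := by
  apply closedBall_subset_closedBall'
  rw [dist_eq_norm]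
  have e : c + (rho1 - 3 * g0) • n - c = (rho1 - 3 * g0) • n := by abel
  rw [e, norm_smul, hn, mul_one, Real.norm_eq_abs, abs_of_nonneg (by linarith [g0_small])]
  linarith [g0_pos]

theorem smallBall_ell {c n w : M} (hn : ‖n‖ = 1) (hw : w ∈ smallBall c n) :
    ell c n w ≤ 4 * g0 := by
  have h1 : ‖w - (c + (rho1 - 3 * g0) • n)‖ ≤ g0 := by
    rw [← dist_eq_norm]; exact hw
  have h2 := abs_real_inner_le_norm n (w - (c + (rho1 - 3 * g0) • n))
  rw [hn, one_mul] at h2
  have h3 : |⟪n, w - (c + (rho1 - 3 * g0) • n)⟫| ≤ g0 := h2.trans h1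
  have h4 := (abs_le.1 h3).1
  have e : w - (c + (rho1 - 3 * g0) • n) = (w - c) - (rho1 - 3 * g0) • n := by abel
  rw [e, inner_sub_right, real_inner_smul_right, real_inner_self_eq_norm_sq, hn] at h4
  unfold ell
  nlinarith

theorem smallBall_dist {c n w : M} (hn : ‖n‖ = 1) (hw : w ∈ smallBall c n) :
    ‖w - c‖ ≤ rho1 - 2 * g0 := by
  have h1 : ‖w - (c + (rho1 - 3 * g0) • n)‖ ≤ g0 := by
    rw [← dist_eq_norm]; exact hw
  have e : w - c = (w - (c + (rho1 - 3 * g0) • n)) + (rho1 - 3 * g0) • n := by abel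
  rw [e]
  refine (norm_add_le _ _).trans ?_
  rw [norm_smul, hn, mul_one, Real.norm_eq_abs, abs_of_nonneg (by linarith [g0_small])]
  linarith

section measure

variable [MeasurableSpace M] [BorelSpace M]

theorem thinSet_measurable {K : Set M} (hK : IsClosed K) (c n : Fin 3 → M) :
    MeasurableSet (thinSet K c n) := by
  apply hK.measurableSet.inter
  have : {w | ∃ i j, i ≠ j ∧ ell (c i) (n i) w < 2 * eta ∧ ell (c j) (n j) w < 2 * eta}
      = ⋃ i, ⋃ j, ⋃ (_ : i ≠ j), ({w | ell (c i) (n i) w < 2 * eta} ∩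
        {w | ell (c j) (n j) w < 2 * eta}) := by
    ext w
    simp only [mem_setOf_eq, mem_iUnion, mem_inter_iff, exists_prop]
  rw [this]
  refine MeasurableSet.iUnion fun i => MeasurableSet.iUnion fun j => MeasurableSet.iUnion fun _ => ?_
  exact (isOpen_lt (ell_continuous _ _) continuous_const).measurableSet.inter
    (isOpen_lt (ell_continuous _ _) continuous_const).measurableSet

variable (ν : Measure M) [ν.IsAddHaarMeasure]

theorem haar_closedBall (hM : finrank ℝ M = 3) (a : M) {r : ℝ} (hr : 0 ≤ r) :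
    ν (closedBall a r) = ENNReal.ofReal (r ^ 3) * ν (ball 0 1) := by
  rw [Measure.addHaar_closedBall ν a hr, hM]

/-- The real-valued unit ball measure. -/
def omega : ℝ := (ν (ball (0 : M) 1)).toReal

omit [FiniteDimensional ℝ M] [MeasurableSpace M] [BorelSpace M] in
theorem omega_pos [Nontrivial M] [MeasurableSpace M] [BorelSpace M] [FiniteDimensional ℝ M]
    (ν : Measure M) [ν.IsAddHaarMeasure] : 0 < omega ν := by
  unfold omega
  apply ENNReal.toReal_pos
  · exact (isOpen_ball.measure_pos ν ⟨0, mem_ball_self one_pos⟩).ne'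
  · exact measure_ball_lt_top.ne

theorem haar_closedBall_toReal (hM : finrank ℝ M = 3) (a : M) {r : ℝ} (hr : 0 ≤ r) :
    (ν (closedBall a r)).toReal = r ^ 3 * omega ν := by
  rw [haar_closedBall ν hM a hr, ENNReal.toReal_mul, ENNReal.toReal_ofReal (by positivity)]
  rfl

/-- One piece of the thin set. -/
theorem piece_bound (hM : finrank ℝ M = 3) {K : Set M} (hc : IsCompact K) {c₀ : M}
    (hout : K ⊆ closedBall c₀ R0) {c₁ c₂ n₁ n₂ : M}
    (hs₁ : ∀ w ∈ K, ⟪n₁, w - c₁⟫ ≤ rho1) (hs₂ : ∀ w ∈ K, ⟪n₂, w - c₂⟫ ≤ rho1)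
    (hsep : ∃ p q : M, ⟪n₁, p⟫ = 1 ∧ ⟪n₂, p⟫ = 0 ∧ ‖p‖ ≤ 1 / kappa ∧
        ⟪n₁, q⟫ = 0 ∧ ⟪n₂, q⟫ = 1 ∧ ‖q‖ ≤ 1 / kappa) :
    (kk : ℝ) ^ 2 * (ν (K ∩ {w | ell c₁ n₁ w < 2 * eta ∧ ell c₂ n₂ w < 2 * eta})).toReal
      ≤ (R0 + slack) ^ 3 * omega ν := by
  obtain ⟨p, q, hp1, hp2, hp3, hq1, hq2, hq3⟩ := hsep
  set S : Set M := K ∩ {w | ell c₁ n₁ w < 2 * eta ∧ ell c₂ n₂ w < 2 * eta} with hS
  have hSm : MeasurableSet S := by
    apply hc.measurableSet.inter
    exact ((isOpen_lt (ell_continuous _ _) continuous_const).inter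
      (isOpen_lt (ell_continuous _ _) continuous_const)).measurableSet
  have hslack : 0 ≤ R0 + slack := by norm_num [R0, slack]
  have hdelta : 0 < 2 * eta := by linarith [eta_pos]
  have hκ := kappa_pos
  have hpack := thin_packing ν hSm (n := n₁) (n' := n₂) (p := p) (q := q)
    (A := rho1 + ⟪n₁, c₁⟫) (A' := rho1 + ⟪n₂, c₂⟫) (δ := 2 * eta) hdelta
    (by
      rintro w ⟨hw, h1, -⟩
      have h3 := hs₁ w hw
      rw [inner_sub_right] at h3
      unfold ell at h1
      rw [inner_sub_right] at h1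
      constructor <;> linarith)
    (by
      rintro w ⟨hw, -, h1⟩
      have h3 := hs₂ w hw
      rw [inner_sub_right] at h3
      unfold ell at h1
      rw [inner_sub_right] at h1
      constructor <;> linarith)
    hp1 hp2 hq1 hq2 kk (Reg := closedBall c₀ (R0 + slack))
    (by
      rintro w ⟨hw, -⟩ a ha b hb
      have h1 : dist w c₀ ≤ R0 := hout hw
      rw [mem_closedBall, dist_eq_norm]
      have e : w + ((a : ℝ) * (2 * eta)) • p + ((b : ℝ) * (2 * eta)) • q - c₀
          = (w - c₀) + (((a : ℝ) * (2 * eta)) • p + ((b : ℝ) * (2 * eta)) • q) := by abel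
      rw [e]
      refine (norm_add_le _ _).trans ?_
      rw [← dist_eq_norm]
      refine add_le_add h1 ?_
      refine (norm_add_le _ _).trans ?_
      rw [norm_smul, norm_smul, Real.norm_eq_abs, Real.norm_eq_abs,
        abs_of_nonneg (by positivity), abs_of_nonneg (by positivity)]
      have ha' : (a : ℝ) ≤ kk := by exact_mod_cast ha.le
      have hb' : (b : ℝ) ≤ kk := by exact_mod_cast hb.le
      have hk := slack_eq
      have h1κ : 0 < 1 / kappa := by positivity
      have e1 : (a : ℝ) * (2 * eta) * ‖p‖ ≤ kk * (2 * eta) * (1 / kappa) := by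
        have a0 : (0 : ℝ) ≤ a := by positivity
        have hpn := norm_nonneg p
        have kk0 := kk_pos
        gcongr
      have e2 : (b : ℝ) * (2 * eta) * ‖q‖ ≤ kk * (2 * eta) * (1 / kappa) := by
        have a0 : (0 : ℝ) ≤ b := by positivity
        have hpn := norm_nonneg q
        have kk0 := kk_pos
        gcongr
      linarith)
  have hfinS : ν S ≠ ⊤ := ne_top_of_le_ne_top hc.measure_lt_top.ne (measure_mono inter_subset_left)
  have hfinR : ν (closedBall c₀ (R0 + slack)) ≠ ⊤ := measure_closedBall_lt_top.ne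
  have := ENNReal.toReal_mono hfinR hpack
  rw [ENNReal.toReal_mul, haar_closedBall_toReal ν hM c₀ hslack, ENNReal.toReal_pow,
    ENNReal.toReal_natCast] at this
  exact this

/-- The thin set has small relative volume. -/
theorem thin_bound (hM : finrank ℝ M = 3) {K : Set M} (hc : IsCompact K) {c₀ : M}
    (hin : closedBall c₀ rho0 ⊆ K) (hout : K ⊆ closedBall c₀ R0) {c n : Fin 3 → M}
    (hs : ∀ i, ∀ w ∈ K, ⟪n i, w - c i⟫ ≤ rho1)
    (hsep : ∀ i j, i ≠ j → ∃ p q : M, ⟪n i, p⟫ = 1 ∧ ⟪n j, p⟫ = 0 ∧ ‖p‖ ≤ 1 / kappa ∧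
        ⟪n i, q⟫ = 0 ∧ ⟪n j, q⟫ = 1 ∧ ‖q‖ ≤ 1 / kappa) :
    (ν (thinSet K c n)).toReal ≤ theta * (ν K).toReal := by
  have : Nontrivial M := by
    apply Module.nontrivial_of_finrank_pos (R := ℝ)
    rw [hM]; norm_num
  set P : Fin 3 → Fin 3 → Set M := fun i j =>
    K ∩ {w | ell (c i) (n i) w < 2 * eta ∧ ell (c j) (n j) w < 2 * eta} with hP
  have hsub : thinSet K c n ⊆ P 0 1 ∪ P 0 2 ∪ P 1 2 := by
    rintro w ⟨hw, i, j, hij, h1, h2⟩
    simp only [mem_union, hP, mem_inter_iff, mem_setOf_eq]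
    fin_cases i <;> fin_cases j <;> simp at hij h1 h2 ⊢ <;> simp [hw, h1, h2]
  have hfin : ∀ i j, ν (P i j) ≠ ⊤ := fun i j =>
    ne_top_of_le_ne_top hc.measure_lt_top.ne (measure_mono inter_subset_left)
  have hbd : ∀ i j, i ≠ j → (ν (P i j)).toReal ≤ (R0 + slack) ^ 3 * omega ν / (kk : ℝ) ^ 2 := by
    intro i j hij
    rw [le_div_iff₀ (by have := kk_pos; positivity), mul_comm]
    exact piece_bound ν hM hc hout (hs i) (hs j) (hsep i j hij)
  have h1 : (ν (thinSet K c n)).toReal ≤
      (ν (P 0 1)).toReal + (ν (P 0 2)).toReal + (ν (P 1 2)).toReal := by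
    have h2 : ν (thinSet K c n) ≤ ν (P 0 1) + ν (P 0 2) + ν (P 1 2) :=
      (measure_mono hsub).trans ((measure_union_le _ _).trans
        (add_le_add (measure_union_le _ _) le_rfl))
    have h3 := ENNReal.toReal_mono (by simp [hfin]) h2
    rwa [ENNReal.toReal_add (by simp [hfin]) (hfin _ _), ENNReal.toReal_add (hfin _ _) (hfin _ _)]
      at h3
  have h01 := hbd 0 1 (by decide)
  have h02 := hbd 0 2 (by decide)
  have h12 := hbd 1 2 (by decide)
  have hω := omega_pos ν
  have hKb : rho0 ^ 3 * omega ν ≤ (ν K).toReal := by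
    rw [← haar_closedBall_toReal ν hM c₀ rho0_pos.le]
    exact ENNReal.toReal_mono hc.measure_lt_top.ne (measure_mono hin)
  have hθ : theta * (rho0 ^ 3 * omega ν) = 3 * ((R0 + slack) ^ 3 * omega ν / (kk : ℝ) ^ 2) := by
    have := kk_pos
    have h5 := rho0_pos
    unfold theta
    field_simp
  have hθ0 : 0 ≤ theta := by
    unfold theta
    have : 0 < R0 + slack := by norm_num [R0, slack]
    have := rho0_pos
    positivity
  calc (ν (thinSet K c n)).toReal
      ≤ 3 * ((R0 + slack) ^ 3 * omega ν / (kk : ℝ) ^ 2) := by linarith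
    _ = theta * (rho0 ^ 3 * omega ν) := hθ.symm
    _ ≤ theta * (ν K).toReal := mul_le_mul_of_nonneg_left hKb hθ0

/-- The small ball has a definite relative volume. -/
theorem smallBall_bound (hM : finrank ℝ M = 3) {K : Set M} {c₀ : M}
    (hout : K ⊆ closedBall c₀ R0) (c n : M) :
    xI * (ν K).toReal ≤ (ν (smallBall c n)).toReal := by
  have : Nontrivial M := by
    apply Module.nontrivial_of_finrank_pos (R := ℝ)
    rw [hM]; norm_num
  have hω := omega_pos ν
  have h1 : (ν K).toReal ≤ R0 ^ 3 * omega ν := by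
    rw [← haar_closedBall_toReal ν hM c₀ R0_pos.le]
    exact ENNReal.toReal_mono measure_closedBall_lt_top.ne (measure_mono hout)
  unfold smallBall
  rw [haar_closedBall_toReal ν hM _ g0_pos.le]
  have hR := R0_pos
  have hx : xI * (R0 ^ 3 * omega ν) = g0 ^ 3 * omega ν := by
    unfold xI
    field_simp
  calc xI * (ν K).toReal ≤ xI * (R0 ^ 3 * omega ν) :=
        mul_le_mul_of_nonneg_left h1 xI_pos.le
    _ = g0 ^ 3 * omega ν := hx

end measure

end Vale.Agent.Lib.P243b
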